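import Vale.Agent.P159.H556.SumR6
import Vale.Agent.P159.H670.R4

/-!
The lower bound of the correlation length.
-/

open MeasureTheory Filter Topology
open scoped BigOperators

namespace Vale.Agent.P159.H556

open Vale.Agent.P159

/-- the error term of the stiffness -/
theorem growth_tendsto {t : ℝ} (ht : 0 < t) (C : ℝ) :
    Tendsto (fun ξ : ℝ => C * (2 * ξ ^ (-t) + (2 * ξ ^ (1 + 2 * t)) ^ 3 * Real.exp (-(ξ ^ t))))
      atTop (𝓝 0) := by
  have h1 : Tendsto (fun ξ : ℝ => 2 * ξ ^ (-t)) atTop (𝓝 0) := by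
    have := (tendsto_rpow_neg_atTop ht).const_mul 2
    simpa using this
  have h2 : Tendsto (fun ξ : ℝ => (2 * ξ ^ (1 + 2 * t)) ^ 3 * Real.exp (-(ξ ^ t)))
      atTop (𝓝 0) := by
    have h3 := (tendsto_rpow_mul_exp_neg_mul_atTop_nhds_zero (3 * (1 + 2 * t) / t) 1
      one_pos).comp (tendsto_rpow_atTop ht)
    have h4 := h3.const_mul 8
    rw [mul_zero] at h4
    refine h4.congr' ?_
    filter_upwards [eventually_ge_atTop (0 : ℝ)] with ξ hξ
    simp only [Function.comp_apply]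
    rw [mul_pow, ← Real.rpow_natCast (ξ ^ (1 + 2 * t)) 3, ← Real.rpow_mul hξ,
      ← Real.rpow_mul hξ, show t * (3 * (1 + 2 * t) / t) = (1 + 2 * t) * ((3 : ℕ) : ℝ) by
        field_simp; push_cast; ring]
    rw [show -1 * ξ ^ t = -(ξ ^ t) by ring]
    ring
  have h5 := (h1.add h2).const_mul C
  simpa using h5

/-- choice of the small parameter -/
theorem exists_param {a ν : ℝ} (ha : 0 < a) (hν : ν * (2 - a) < 1) :
    ∃ t : ℝ, 0 < t ∧ t < a ∧ ν * ((1 + 2 * t) * (2 - (a - t))) < 1 := by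
  have hc : Tendsto (fun t : ℝ => ν * ((1 + 2 * t) * (2 - (a - t)))) (𝓝 0)
      (𝓝 (ν * ((1 + 2 * 0) * (2 - (a - 0))))) := by
    apply Continuous.tendsto
    fun_prop
  have h1 : ν * ((1 + 2 * 0) * (2 - (a - 0))) < 1 := by
    simpa using hν
  have h2 : ∀ᶠ t : ℝ in 𝓝[>] 0, ν * ((1 + 2 * t) * (2 - (a - t))) < 1 :=
    (hc.mono_left nhdsWithin_le_nhds).eventually (gt_mem_nhds h1)
  have h3 : ∀ᶠ t : ℝ in 𝓝[>] 0, 0 < t := eventually_mem_nhdsWithin
  have h4 : ∀ᶠ t : ℝ in 𝓝[>] 0, t < a :=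
    (tendsto_id.mono_left nhdsWithin_le_nhds).eventually (gt_mem_nhds ha)
  obtain ⟨t, ht⟩ := (h2.and (h3.and h4)).exists
  exact ⟨t, ht.2.1, ht.2.2, ht.1⟩

theorem pi_hel : 2 ≤ Real.pi * helicity bCrit := by
  have hY := H170.hel_bCrit_ge
  rw [div_le_iff₀ Real.pi_pos] at hY
  linarith

/-- the correlation length diverges -/
theorem xi_tendsto : Tendsto corrLength (𝓝[<] bCrit) atTop := by
  have hY := pi_hel
  obtain ⟨-, -, -, -, -, hxi, -⟩ := H170.final
  have hlt : (1 / 2 : ℝ) < 1 / (2 - 1 / (2 * Real.pi * helicity bCrit)) := by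
    have h0 : 0 < 1 / (2 * Real.pi * helicity bCrit) := by
      apply one_div_pos.2; nlinarith
    have h1 : 1 / (2 * Real.pi * helicity bCrit) ≤ 1 / 4 := by
      apply one_div_le_one_div_of_le (by norm_num)
      nlinarith
    apply one_div_lt_one_div_of_lt <;> linarith
  obtain ⟨c, δ, hc, hδ, h⟩ := hxi (1 / 2) hlt
  have h1 : Tendsto (fun b : ℝ => bCrit - b) (𝓝[<] bCrit) (𝓝[>] 0) := by
    apply tendsto_nhdsWithin_of_tendsto_nhds_of_eventually_within
    · have : Tendsto (fun b : ℝ => bCrit - b) (𝓝 bCrit) (𝓝 (bCrit - bCrit)) := by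
        apply Continuous.tendsto; fun_prop
      rw [sub_self] at this
      exact this.mono_left nhdsWithin_le_nhds
    · filter_upwards [self_mem_nhdsWithin] with b hb
      exact sub_pos.2 (Set.mem_Iio.1 hb)
  have h2 : Tendsto (fun x : ℝ => c * x ^ (-(1 / 2) : ℝ)) (𝓝[>] 0) atTop :=
    (tendsto_rpow_neg_nhdsGT_zero (by norm_num)).const_mul_atTop hc
  refine tendsto_atTop_mono' _ ?_ (h2.comp h1)
  have h3 : Set.Ioo (bCrit - δ) bCrit ∈ 𝓝[<] bCrit :=
    Ioo_mem_nhdsLT (by linarith)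
  filter_upwards [h3] with b hb
  exact h b hb.1 hb.2

/-- the lower bound of the correlation length -/
theorem r6 (r3 : R3) : R6 := by
  intro ν hν
  have hpi := Real.pi_pos
  have hc := H170.bCrit_pos
  have hpY := pi_hel
  set Y := helicity bCrit with hYdef
  have hY0 : 0 < Y := by
    by_contra h
    push Not at h
    nlinarith
  set a : ℝ := 1 / (Real.pi * Y) with ha
  have hpY0 : 0 < Real.pi * Y := by positivity
  have ha0 : 0 < a := by positivity
  have ha1 : a ≤ 1 / 2 := one_div_le_one_div_of_le (by norm_num) hpY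
  rcases le_or_gt ν (1 / 2) with hν2 | hν2
  · obtain ⟨-, -, -, -, -, hxi, -⟩ := H170.final
    apply hxi ν
    refine lt_of_le_of_lt hν2 ?_
    have h0 : 0 < 1 / (2 * Real.pi * Y) := by positivity
    have h1 : 1 / (2 * Real.pi * Y) ≤ 1 / 4 := by
      apply one_div_le_one_div_of_le (by norm_num)
      nlinarith
    apply one_div_lt_one_div_of_lt <;> linarith
  have hν0 : 0 < ν := by linarith
  have hνa : ν * (2 - a) < 1 := by rwa [lt_div_iff₀ (by linarith)] at hν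
  obtain ⟨t, ht, hta, htν⟩ := exists_param ha0 hνa
  -- the power sum at the critical point
  obtain ⟨C, hC, hsum⟩ := sum_bound (b := bCrit) (κ := (a - t) / 4) hc (by linarith)
    (by linarith) (by
      have : (a - t) / 4 * (4 * Real.pi * helicity bCrit) = 1 - t * (Real.pi * Y) := by
        rw [← hYdef, ha]; field_simp
      rw [this]
      have : 0 < t * (Real.pi * Y) := by positivity
      linarith) r3
  have e4 : 4 * ((a - t) / 4) = a - t := by ring
  simp only [e4] at hsum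
  obtain ⟨C4, hC4, hst⟩ := H670.r4 bCrit hc
  set p : ℝ := (1 + 2 * t) * (2 - (a - t)) with hp
  have hp0 : 0 < p := by
    have : 0 < 2 - (a - t) := by linarith
    positivity
  -- eventual facts
  have E1 : ∀ᶠ ξ : ℝ in atTop, C4 * (2 * ξ ^ (-t) + (2 * ξ ^ (1 + 2 * t)) ^ 3 *
      Real.exp (-(ξ ^ t))) < Y / 4 :=
    (growth_tendsto ht C4).eventually (gt_mem_nhds (by positivity))
  have E2 : ∀ᶠ N : ℕ in atTop, Y / 4 < FF N bCrit :=
    (FF_lim hc).eventually (lt_mem_nhds (by rw [← hYdef]; linarith))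
  have hceil : Tendsto (fun ξ : ℝ => ⌈ξ ^ (1 + 2 * t)⌉₊) atTop atTop :=
    tendsto_nat_ceil_atTop.comp (tendsto_rpow_atTop (by positivity))
  have E3 : ∀ᶠ ξ : ℝ in atTop, Y / 4 < FF ⌈ξ ^ (1 + 2 * t)⌉₊ bCrit := hceil.eventually E2
  have E5 := xi_tendsto.eventually (E1.and (E3.and (eventually_ge_atTop (1 : ℝ))))
  have E6 : ∀ᶠ b : ℝ in 𝓝[<] bCrit, 0 < b :=
    (tendsto_id.mono_left nhdsWithin_le_nhds).eventually (lt_mem_nhds hc)
  have E7 : ∀ᶠ b : ℝ in 𝓝[<] bCrit, bCrit - 1 < b :=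
    (tendsto_id.mono_left nhdsWithin_le_nhds).eventually (lt_mem_nhds (by linarith))
  obtain ⟨b₀, hb₀, hall⟩ := (mem_nhdsLT_iff_exists_Ioo_subset.1 (E5.and (E6.and E7)))
  set D : ℝ := C * 2 ^ (2 - (a - t)) with hD
  have hD0 : 0 < D := by positivity
  refine ⟨(Y / (8 * D)) ^ (1 / p), bCrit - b₀, by positivity,
    sub_pos.2 (Set.mem_Iio.1 hb₀), fun b hb hbc => ?_⟩
  have hmem : b ∈ Set.Ioo b₀ bCrit := ⟨by linarith, hbc⟩
  obtain ⟨⟨h1, h3, hξ1⟩, hb0, hb1⟩ := hall hmem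
  have hm : 0 < mass b := (H170.final.2.1 b hb0 hbc).1
  set ξ : ℝ := corrLength b with hξ
  have hξ0 : 0 < ξ := by linarith
  have hmξ : mass b = ξ⁻¹ := by rw [hξ]; unfold corrLength; simp
  set R : ℕ := ⌈ξ ^ (1 + t)⌉₊ with hR
  set l : ℕ := ⌈ξ ^ (1 + 2 * t)⌉₊ with hl
  have hA1 : 1 ≤ ξ ^ (1 + t) := Real.one_le_rpow hξ1 (by linarith)
  have hA2 : 1 ≤ ξ ^ (1 + 2 * t) := Real.one_le_rpow hξ1 (by linarith)
  have hRl : R ≤ l := Nat.ceil_mono (Real.rpow_le_rpow_of_exponent_le hξ1 (by linarith))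
  have hR1 : 1 ≤ R := by
    have := (Nat.le_ceil (ξ ^ (1 + t)))
    exact_mod_cast hA1.trans this
  have hl1 : 1 ≤ l := hR1.trans hRl
  have hll : ξ ^ (1 + 2 * t) ≤ (l : ℝ) := Nat.le_ceil _
  have hlu : (l : ℝ) ≤ 2 * ξ ^ (1 + 2 * t) := by
    have := (Nat.ceil_lt_add_one (show 0 ≤ ξ ^ (1 + 2 * t) by linarith)).le
    linarith
  have hRl' : ξ ^ (1 + t) ≤ (R : ℝ) := Nat.le_ceil _
  have hRu : (R : ℝ) ≤ 2 * ξ ^ (1 + t) := by
    have := (Nat.ceil_lt_add_one (show 0 ≤ ξ ^ (1 + t) by linarith)).le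
    linarith
  have hst1 := hst b hb0 hbc.le hm l R hR1 hRl
  have q1 : (R : ℝ) / l ≤ 2 * ξ ^ (-t) := by
    rw [div_le_iff₀ (by linarith)]
    have : ξ ^ (1 + t) = ξ ^ (-t) * ξ ^ (1 + 2 * t) := by
      rw [← Real.rpow_add hξ0]; congr 1; ring
    have h4 : ξ ^ (-t) * ξ ^ (1 + 2 * t) ≤ ξ ^ (-t) * l :=
      mul_le_mul_of_nonneg_left hll (Real.rpow_nonneg hξ0.le _)
    linarith
  have q2 : (l : ℝ) ^ 3 * Real.exp (-(mass b * R)) ≤
      (2 * ξ ^ (1 + 2 * t)) ^ 3 * Real.exp (-(ξ ^ t)) := by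
    have h4 : ξ ^ t ≤ mass b * R := by
      rw [hmξ]
      have : ξ ^ t = ξ⁻¹ * ξ ^ (1 + t) := by
        rw [Real.rpow_add hξ0, Real.rpow_one]; field_simp
      rw [this]
      exact mul_le_mul_of_nonneg_left hRl' (by positivity)
    exact mul_le_mul (pow_le_pow_left₀ (by positivity) hlu 3)
      (Real.exp_le_exp.2 (by linarith)) (Real.exp_pos _).le (by positivity)
  have q3 : stiff l b < Y / 4 :=
    lt_of_le_of_lt (hst1.trans (mul_le_mul_of_nonneg_left (add_le_add q1 q2) hC4)) h1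
  have q4 := r5 l b hl1 hb0.le
  have q5 := r2 l b bCrit hl1 hb0 hbc.le
  have hx0 : 0 < bCrit - b := by linarith
  have q6 : Y / 8 < (bCrit - b) * (D * ξ ^ p) := by
    have h5 : (l : ℝ) ^ (2 - (a - t)) ≤ 2 ^ (2 - (a - t)) * ξ ^ p := by
      have h6 := Real.rpow_le_rpow (by positivity) hlu (show 0 ≤ 2 - (a - t) by linarith)
      rwa [Real.mul_rpow (by norm_num) (by positivity), ← Real.rpow_mul hξ0.le] at h6
    have h7 := hsum l hl1
    have h8 : C * (l : ℝ) ^ (2 - (a - t)) ≤ D * ξ ^ p := by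
      rw [hD, mul_assoc]
      exact mul_le_mul_of_nonneg_left h5 hC.le
    have h9 := mul_le_mul_of_nonneg_left (h7.trans h8) hx0.le
    linarith
  by_contra hcon
  push Not at hcon
  have q7 : ξ ^ p < Y / (8 * D) * (bCrit - b) ^ (-1 : ℝ) := by
    have h5 := Real.rpow_lt_rpow hξ0.le hcon hp0
    rw [Real.mul_rpow (by positivity) (by positivity), ← Real.rpow_mul (by positivity),
      ← Real.rpow_mul hx0.le, one_div_mul_cancel hp0.ne', Real.rpow_one] at h5
    refine h5.trans_le (mul_le_mul_of_nonneg_left ?_ (by positivity))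
    exact Real.rpow_le_rpow_of_exponent_ge hx0 (by linarith) (by linarith)
  rw [Real.rpow_neg_one] at q7
  have q8 : (bCrit - b) * (D * ξ ^ p) < Y / 8 := by
    have h5 := mul_lt_mul_of_pos_left q7 (mul_pos hx0 hD0)
    have e : (bCrit - b) * D * (Y / (8 * D) * (bCrit - b)⁻¹) = Y / 8 := by
      field_simp
    rw [e] at h5
    linarith
  linarith

end Vale.Agent.P159.H556
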