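import Vale.Agent.P159.H556.Fields

/-!
The block with slowly varying boundary spins as a spin system with fields.
-/

open MeasureTheory Filter Topology
open scoped BigOperators

set_option linter.unusedSectionVars false

namespace Vale.Agent.P159.H556

open Vale.Agent.P159

/-- boundary angle -/
noncomputable def bang (N : ℕ) (g : ℝ → ℝ → ℝ) (v : ℤ × ℤ) : ℝ := g ((v.1 : ℝ) / N) ((v.2 : ℝ) / N)

/-- cosine field -/
noncomputable def cG (N : ℕ) (b : ℝ) (g : ℝ → ℝ → ℝ) (x : inner N) : ℝ :=
  ∑ e : BI N, ((if bu e = x ∧ bv e ∉ inner N then b / 2 * Real.cos (bang N g (bv e)) else 0) +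
    (if bv e = x ∧ bu e ∉ inner N then b / 2 * Real.cos (bang N g (bu e)) else 0))

/-- sine field -/
noncomputable def sG (N : ℕ) (b : ℝ) (g : ℝ → ℝ → ℝ) (x : inner N) : ℝ :=
  ∑ e : BI N, ((if bu e = x ∧ bv e ∉ inner N then b / 2 * Real.sin (bang N g (bv e)) else 0) +
    (if bv e = x ∧ bu e ∉ inner N then b / 2 * Real.sin (bang N g (bu e)) else 0))

/-- constant part -/
noncomputable def kG (N : ℕ) (b : ℝ) (g : ℝ → ℝ → ℝ) : ℝ :=
  ∑ e : BI N, if bu e ∉ inner N ∧ bv e ∉ inner N then
    b / 2 * Real.cos (bang N g (bu e) - bang N g (bv e)) else 0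

theorem extBy_mem {N : ℕ} {g : ℝ → ℝ → ℝ} {θ : inner N → T} {v : ℤ × ℤ} (h : v ∈ inner N) :
    extBy N g θ v = θ ⟨v, h⟩ := by
  unfold extBy; rw [dif_pos h]

theorem extBy_notMem {N : ℕ} {g : ℝ → ℝ → ℝ} {θ : inner N → T} {v : ℤ × ℤ} (h : v ∉ inner N) :
    extBy N g θ v = (bang N g v : T) := by
  unfold extBy; rw [dif_neg h]; rfl

theorem cosT_sub_coe (x : T) (r : ℝ) :
    cosT (x - (r : T)) = Real.cos r * XY.ct x + Real.sin r * XY.st x := by
  have h : cosT (x - (r : T)) = XY.ct x * XY.ct (r : T) + XY.st x * XY.st (r : T) :=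
    XY.ct_sub x (r : T)
  have h1 : XY.ct (r : T) = Real.cos r := Real.Angle.cos_coe r
  have h2 : XY.st (r : T) = Real.sin r := Real.Angle.sin_coe r
  rw [h, h1, h2]
  ring

theorem cosT_coe_sub (x : T) (r : ℝ) :
    cosT ((r : T) - x) = Real.cos r * XY.ct x + Real.sin r * XY.st x := by
  rw [← cosT_sub_coe, ← neg_sub, cosT_neg]

/-- the energy of the block with boundary spins -/
theorem bdry_field (N : ℕ) (b : ℝ) (g : ℝ → ℝ → ℝ) (θ : inner N → T) :
    horiz N b cosT (extBy N g θ) + vert N b cosT (extBy N g θ) =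
      XY.energy (mJ N b) θ + ∑ x, (cG N b g x * XY.ct (θ x) + sG N b g x * XY.st (θ x)) +
        kG N b g := by
  classical
  have h0 : horiz N b cosT (extBy N g θ) + vert N b cosT (extBy N g θ) =
      ∑ e : BI N, b / 2 * cosT (extBy N g θ (bu e) - extBy N g θ (bv e)) := (sum_all b cosT _).symm
  have h1 : XY.energy (mJ N b) θ = ∑ e : BI N,
      (if h : bu e ∈ inner N then (if h' : bv e ∈ inner N then
        b / 2 * cosT (θ ⟨bu e, h⟩ - θ ⟨bv e, h'⟩) else 0) else 0) := by
    unfold XY.energy mJ
    have e1 : ∀ u v : inner N, (∑ e : BI N, if bu e = u ∧ bv e = v then b / 2 else 0) *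
        XY.ct (θ u - θ v) = ∑ e : BI N, if bu e = u then (if bv e = v then
          b / 2 * cosT (θ u - θ v) else 0) else 0 := by
      intro u v
      rw [Finset.sum_mul]
      refine Finset.sum_congr rfl fun e _ => ?_
      by_cases h : bu e = u
      · by_cases h' : bv e = v
        · rw [if_pos ⟨h, h'⟩, if_pos h, if_pos h']; rfl
        · rw [if_neg (fun hh => h' hh.2), if_pos h, if_neg h', zero_mul]
      · rw [if_neg (fun hh => h hh.1), if_neg h, zero_mul]
    simp_rw [e1]
    have e2 : ∀ u : inner N, ∑ v : inner N, ∑ e : BI N, (if bu e = u then (if bv e = v then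
          b / 2 * cosT (θ u - θ v) else 0) else 0) = ∑ e : BI N, if bu e = u then
          (if h' : bv e ∈ inner N then b / 2 * cosT (θ u - θ ⟨bv e, h'⟩) else 0) else 0 := by
      intro u
      rw [Finset.sum_comm]
      refine Finset.sum_congr rfl fun e _ => ?_
      by_cases h : bu e = u
      · simp only [if_pos h]
        exact sum_sub_ite (bv e) (fun v => b / 2 * cosT (θ u - θ v))
      · simp only [if_neg h, Finset.sum_const_zero]
    simp_rw [e2]
    rw [Finset.sum_comm]
    refine Finset.sum_congr rfl fun e _ => ?_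
    exact sum_sub_ite (bu e) (fun u => if h' : bv e ∈ inner N then
      b / 2 * cosT (θ u - θ ⟨bv e, h'⟩) else 0)
  have h2 : ∑ x, (cG N b g x * XY.ct (θ x) + sG N b g x * XY.st (θ x)) = ∑ e : BI N,
      ((if h : bu e ∈ inner N then (if bv e ∉ inner N then
          b / 2 * cosT (θ ⟨bu e, h⟩ - (bang N g (bv e) : T)) else 0) else 0)
      + (if h : bv e ∈ inner N then (if bu e ∉ inner N then
          b / 2 * cosT (θ ⟨bv e, h⟩ - (bang N g (bu e) : T)) else 0) else 0)) := by
    unfold cG sG
    have e1 : ∀ x : inner N,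
        (∑ e : BI N, ((if bu e = x ∧ bv e ∉ inner N then b / 2 * Real.cos (bang N g (bv e)) else 0)
          + (if bv e = x ∧ bu e ∉ inner N then b / 2 * Real.cos (bang N g (bu e)) else 0))) *
            XY.ct (θ x) +
        (∑ e : BI N, ((if bu e = x ∧ bv e ∉ inner N then b / 2 * Real.sin (bang N g (bv e)) else 0)
          + (if bv e = x ∧ bu e ∉ inner N then b / 2 * Real.sin (bang N g (bu e)) else 0))) *
            XY.st (θ x) =
        ∑ e : BI N, ((if bu e = x then (if bv e ∉ inner N then
            b / 2 * cosT (θ x - (bang N g (bv e) : T)) else 0) else 0) +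
        (if bv e = x then (if bu e ∉ inner N then
            b / 2 * cosT (θ x - (bang N g (bu e) : T)) else 0) else 0)) := by
      intro x
      rw [Finset.sum_mul, Finset.sum_mul, ← Finset.sum_add_distrib]
      refine Finset.sum_congr rfl fun e _ => ?_
      have e3 : ∀ (p q : Prop) [Decidable p] [Decidable q] (r : ℝ),
          (if p ∧ q then b / 2 * Real.cos r else 0) * XY.ct (θ x) +
          (if p ∧ q then b / 2 * Real.sin r else 0) * XY.st (θ x) =
          if p then (if q then b / 2 * cosT (θ x - (r : T)) else 0) else 0 := by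
        intro p q _ _ r
        by_cases hp : p
        · by_cases hq : q
          · rw [if_pos ⟨hp, hq⟩, if_pos ⟨hp, hq⟩, if_pos hp, if_pos hq, cosT_sub_coe]; ring
          · rw [if_neg (fun hh => hq hh.2), if_neg (fun hh => hq hh.2), if_pos hp, if_neg hq,
              zero_mul, zero_mul, add_zero]
        · rw [if_neg (fun hh => hp hh.1), if_neg (fun hh => hp hh.1), if_neg hp, zero_mul,
            zero_mul, add_zero]
      rw [← e3 (bu e = x) (bv e ∉ inner N), ← e3 (bv e = x) (bu e ∉ inner N)]
      ring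
    simp_rw [e1]
    rw [Finset.sum_comm]
    refine Finset.sum_congr rfl fun e _ => ?_
    rw [Finset.sum_add_distrib,
      sum_sub_ite (bu e) (fun x => if bv e ∉ inner N then
        b / 2 * cosT (θ x - (bang N g (bv e) : T)) else 0),
      sum_sub_ite (bv e) (fun x => if bu e ∉ inner N then
        b / 2 * cosT (θ x - (bang N g (bu e) : T)) else 0)]
  rw [h0, h1, h2]
  unfold kG
  rw [← Finset.sum_add_distrib, ← Finset.sum_add_distrib]
  refine Finset.sum_congr rfl fun e _ => ?_
  by_cases hu : bu e ∈ inner N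
  · by_cases hv : bv e ∈ inner N
    · rw [extBy_mem hu, extBy_mem hv]
      simp only [hu, ↓reduceDIte, hv, not_true_eq_false, ↓reduceIte, add_zero, and_self]
    · rw [extBy_mem hu, extBy_notMem hv]
      simp only [hu, ↓reduceDIte, hv, not_false_eq_true, ↓reduceIte, add_zero, zero_add,
        not_true_eq_false, and_true]
  · by_cases hv : bv e ∈ inner N
    · rw [extBy_notMem hu, extBy_mem hv]
      simp only [hu, ↓reduceDIte, hv, not_false_eq_true, ↓reduceIte, zero_add,
        not_true_eq_false, and_false, add_zero]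
      rw [cosT_sub_coe, cosT_coe_sub]
    · rw [extBy_notMem hu, extBy_notMem hv, ← AddCircle.coe_sub, cosT_coe]
      simp [hu, hv]

theorem cG_nonneg {N : ℕ} {b : ℝ} (hb : 0 ≤ b) {g : ℝ → ℝ → ℝ}
    (hg : ∀ e : BI N, 0 ≤ Real.cos (bang N g (bu e)) ∧ 0 ≤ Real.cos (bang N g (bv e)))
    (x : inner N) : 0 ≤ cG N b g x := by
  refine Finset.sum_nonneg fun e _ => add_nonneg ?_ ?_
  · split_ifs with h
    · exact mul_nonneg (by positivity) (hg e).2
    · exact le_refl _
  · split_ifs with h
    · exact mul_nonneg (by positivity) (hg e).1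
    · exact le_refl _

theorem sG_nonneg {N : ℕ} {b : ℝ} (hb : 0 ≤ b) {g : ℝ → ℝ → ℝ}
    (hg : ∀ e : BI N, 0 ≤ Real.sin (bang N g (bu e)) ∧ 0 ≤ Real.sin (bang N g (bv e)))
    (x : inner N) : 0 ≤ sG N b g x := by
  refine Finset.sum_nonneg fun e _ => add_nonneg ?_ ?_
  · split_ifs with h
    · exact mul_nonneg (by positivity) (hg e).2
    · exact le_refl _
  · split_ifs with h
    · exact mul_nonneg (by positivity) (hg e).1
    · exact le_refl _

theorem cG_le {N : ℕ} {b : ℝ} (hb : 0 ≤ b) (g : ℝ → ℝ → ℝ) (x : inner N) :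
    cG N b g x ≤ mh N b x := by
  unfold cG mh
  refine Finset.sum_le_sum fun e _ => add_le_add ?_ ?_
  · split_ifs
    · exact mul_le_of_le_one_right (by positivity) (Real.cos_le_one _)
    · exact le_refl _
  · split_ifs
    · exact mul_le_of_le_one_right (by positivity) (Real.cos_le_one _)
    · exact le_refl _

theorem sG_le {N : ℕ} {b : ℝ} (hb : 0 ≤ b) (g : ℝ → ℝ → ℝ) (x : inner N) :
    sG N b g x ≤ mh N b x := by
  unfold sG mh
  refine Finset.sum_le_sum fun e _ => add_le_add ?_ ?_
  · split_ifs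
    · exact mul_le_of_le_one_right (by positivity) (Real.sin_le_one _)
    · exact le_refl _
  · split_ifs
    · exact mul_le_of_le_one_right (by positivity) (Real.sin_le_one _)
    · exact le_refl _

end Vale.Agent.P159.H556
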