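import Vale.Agent.P159.H556.Block

/-!
The free energy of the twist as a function of the inverse temperature.
-/

open MeasureTheory Filter Topology
open scoped BigOperators

set_option linter.unusedSectionVars false

namespace Vale.Agent.P159.H556

open Vale.Agent.P159

/-- energy at `b = 1` -/
noncomputable def eG (N : ℕ) (g : ℝ → ℝ → ℝ) (θ : inner N → T) : ℝ :=
  horiz N 1 cosT (extBy N g θ) + vert N 1 cosT (extBy N g θ)

theorem eG_eq (N : ℕ) (g : ℝ → ℝ → ℝ) (θ : inner N → T) :
    eG N g θ = ∑ e : BI N, 1 / 2 * cosT (extBy N g θ (bu e) - extBy N g θ (bv e)) :=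
  (sum_all 1 cosT _).symm

theorem eG_mul (N : ℕ) (b : ℝ) (g : ℝ → ℝ → ℝ) (θ : inner N → T) :
    horiz N b cosT (extBy N g θ) + vert N b cosT (extBy N g θ) = b * eG N g θ := by
  rw [eG_eq, ← sum_all, Finset.mul_sum]
  exact Finset.sum_congr rfl fun e _ => by ring

theorem extBy_cont (N : ℕ) (g : ℝ → ℝ → ℝ) : Continuous (extBy N g) := by
  refine continuous_pi fun v => ?_
  by_cases h : v ∈ inner N
  · have : (fun θ : inner N → T => extBy N g θ v) = fun θ => θ ⟨v, h⟩ := by
      funext θ; exact extBy_mem h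
    rw [this]
    exact continuous_apply _
  · have : (fun θ : inner N → T => extBy N g θ v) = fun _ => (bang N g v : T) := by
      funext θ; exact extBy_notMem h
    rw [this]
    exact continuous_const

theorem bond_cont (N : ℕ) (g : ℝ → ℝ → ℝ) (e : BI N) :
    Continuous fun θ : inner N → T => cosT (extBy N g θ (bu e) - extBy N g θ (bv e)) :=
  cont_cos.comp (((continuous_apply (bu e)).comp (extBy_cont N g)).sub
    ((continuous_apply (bv e)).comp (extBy_cont N g)))

theorem eG_cont (N : ℕ) (g : ℝ → ℝ → ℝ) : Continuous (eG N g) := by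
  have : eG N g = fun θ => ∑ e : BI N,
      1 / 2 * cosT (extBy N g θ (bu e) - extBy N g θ (bv e)) := funext (eG_eq N g)
  rw [this]
  exact continuous_finsetSum _ fun e _ => continuous_const.mul (bond_cont N g e)

/-- derivative of the integral of an exponential -/
theorem hasDerivAt_int {X : Type*} [TopologicalSpace X] [CompactSpace X] [MeasurableSpace X]
    [BorelSpace X] [SecondCountableTopology X] (μ : Measure X) [IsProbabilityMeasure μ]
    {h : X → ℝ} (hh : Continuous h) (b : ℝ) :
    HasDerivAt (fun s : ℝ => ∫ x, Real.exp (s * h x) ∂μ) (∫ x, h x * Real.exp (b * h x) ∂μ) b := by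
  obtain ⟨M, hM0, hM⟩ := exists_bound hh
  refine (hasDerivAt_integral_of_dominated_loc_of_deriv_le
    (F := fun s x => Real.exp (s * h x)) (F' := fun s x => h x * Real.exp (s * h x))
    (bound := fun _ => M * Real.exp ((|b| + 1) * M)) (x₀ := b) (s := Metric.ball b 1)
    (Metric.ball_mem_nhds b one_pos) ?_ ?_ ?_ ?_ ?_ ?_).2
  · exact Eventually.of_forall fun s =>
      (Real.continuous_exp.comp (continuous_const.mul hh)).aestronglyMeasurable
  · exact cint (Real.continuous_exp.comp (continuous_const.mul hh))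
  · exact (hh.mul (Real.continuous_exp.comp (continuous_const.mul hh))).aestronglyMeasurable
  · refine Eventually.of_forall fun x s hs => ?_
    have h1 : ‖h x‖ ≤ M := hM x
    rw [norm_mul, Real.norm_eq_abs (Real.exp _), abs_of_pos (Real.exp_pos _)]
    refine mul_le_mul h1 ?_ (Real.exp_pos _).le hM0
    rw [Real.exp_le_exp]
    have h2 : |s| ≤ |b| + 1 := by
      have h3 : |s - b| < 1 := by rwa [Metric.mem_ball, Real.dist_eq] at hs
      have h4 : |s| ≤ |s - b| + |b| := by
        have := abs_add_le (s - b) b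
        rwa [sub_add_cancel] at this
      linarith
    calc s * h x ≤ |s * h x| := le_abs_self _
      _ = |s| * |h x| := abs_mul _ _
      _ ≤ (|b| + 1) * M := mul_le_mul h2 h1 (abs_nonneg _) (by positivity)
  · exact integrable_const _
  · refine Eventually.of_forall fun x s _ => ?_
    have h1 : HasDerivAt (fun s : ℝ => s * h x) (h x) s := by
      simpa using (hasDerivAt_id s).mul_const (h x)
    have h2 := h1.exp
    rwa [mul_comm] at h2

/-- expectation in the block with boundary spins -/
noncomputable def EG (N : ℕ) (b : ℝ) (g : ℝ → ℝ → ℝ) (f : (inner N → T) → ℝ) : ℝ :=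
  (∫ θ, f θ * Real.exp (b * eG N g θ) ∂torusHaar (inner N)) / bdryZ N b g

theorem bdryZ_int (N : ℕ) (b : ℝ) (g : ℝ → ℝ → ℝ) :
    bdryZ N b g = ∫ θ, Real.exp (b * eG N g θ) ∂torusHaar (inner N) := by
  unfold bdryZ
  simp_rw [eG_mul]

theorem bdryZ_pos (N : ℕ) (b : ℝ) (g : ℝ → ℝ → ℝ) : 0 < bdryZ N b g := by
  rw [bdryZ_int]
  exact integral_exp_pos (cint (Real.continuous_exp.comp (continuous_const.mul (eG_cont N g))))

theorem log_deriv (N : ℕ) (b : ℝ) (g : ℝ → ℝ → ℝ) :
    HasDerivAt (fun s : ℝ => Real.log (bdryZ N s g))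
      (∑ e : BI N, 1 / 2 * EG N b g
        (fun θ => cosT (extBy N g θ (bu e) - extBy N g θ (bv e)))) b := by
  have h1 := hasDerivAt_int (torusHaar (inner N)) (eG_cont N g) b
  have h2 : (fun s : ℝ => bdryZ N s g) = fun s => ∫ θ, Real.exp (s * eG N g θ)
      ∂torusHaar (inner N) := funext fun s => bdryZ_int N s g
  rw [← h2] at h1
  have h3 := h1.log (bdryZ_pos N b g).ne'
  have h4 : (∫ θ, eG N g θ * Real.exp (b * eG N g θ) ∂torusHaar (inner N)) / bdryZ N b g =
      ∑ e : BI N, 1 / 2 * EG N b g
        (fun θ => cosT (extBy N g θ (bu e) - extBy N g θ (bv e))) := by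
    have h5 : (∫ θ, eG N g θ * Real.exp (b * eG N g θ) ∂torusHaar (inner N)) =
        ∑ e : BI N, 1 / 2 * ∫ θ, cosT (extBy N g θ (bu e) - extBy N g θ (bv e)) *
          Real.exp (b * eG N g θ) ∂torusHaar (inner N) := by
      have h6 : ∀ θ : inner N → T, eG N g θ * Real.exp (b * eG N g θ) =
          ∑ e : BI N, 1 / 2 * (cosT (extBy N g θ (bu e) - extBy N g θ (bv e)) *
            Real.exp (b * eG N g θ)) := by
        intro θ
        nth_rewrite 1 [eG_eq]
        rw [Finset.sum_mul]
        exact Finset.sum_congr rfl fun e _ => by ring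
      simp_rw [h6]
      rw [integral_finsetSum]
      · exact Finset.sum_congr rfl fun e _ => integral_const_mul _ _
      · intro e _
        exact cint (continuous_const.mul ((bond_cont N g e).mul
          (Real.continuous_exp.comp (continuous_const.mul (eG_cont N g)))))
    rw [h5, Finset.sum_div]
    refine Finset.sum_congr rfl fun e _ => ?_
    unfold EG
    ring
  rw [h4] at h3
  exact h3

theorem EG_abs_le (N : ℕ) (b : ℝ) (g : ℝ → ℝ → ℝ) (e : BI N) :
    |EG N b g (fun θ => cosT (extBy N g θ (bu e) - extBy N g θ (bv e)))| ≤ 1 := by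
  have hp := bdryZ_pos N b g
  have hc := Real.continuous_exp.comp (continuous_const.mul (eG_cont N g) :
    Continuous fun θ => b * eG N g θ)
  unfold EG
  rw [abs_div, abs_of_pos hp, div_le_one hp, bdryZ_int]
  refine (abs_integral_le_integral_abs).trans ?_
  refine integral_mono (cint ((bond_cont N g e).mul hc).abs) (cint hc) fun θ => ?_
  show |cosT (extBy N g θ (bu e) - extBy N g θ (bv e)) * Real.exp (b * eG N g θ)| ≤
    Real.exp (b * eG N g θ)
  rw [abs_mul, abs_of_pos (Real.exp_pos _)]
  exact mul_le_of_le_one_left (Real.exp_pos _).le ((grad (bu e) (bv e)).abs_c_le (extBy N g θ))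

end Vale.Agent.P159.H556
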