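import Vale.Agent.P159.H556.Rows

/-!
Transversal correlations in fields coupled to the cosines and the sines of the spins: they
decrease when the cosine field grows and increase when the sine field grows.
-/

open MeasureTheory Filter Topology
open scoped BigOperators

set_option linter.unusedSectionVars false

namespace Vale.Agent.P159.H556

open Vale.Agent.P159 Vale.Agent.P159.XY

variable {V : Type*} [Fintype V]

/-- product of a cosine or sine at `α` and a cosine or sine at `β` -/
noncomputable def fA (i : (V × V) × (Bool × Bool) ⊕ V × (Bool × Bool)) : (V → T) → ℝ :=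
  Sum.elim (fun i => mo2 i.2.1 i.1.1 i.1.2) (fun i => mo1 i.2.1 i.1) i

/-- second factor -/
noncomputable def fB (i : (V × V) × (Bool × Bool) ⊕ V × (Bool × Bool)) : (V → T) → ℝ :=
  Sum.elim (fun i => mo2 i.2.2 i.1.1 i.1.2) (fun i => mo1 i.2.2 i.1) i

theorem fA_cont (i : (V × V) × (Bool × Bool) ⊕ V × (Bool × Bool)) : Continuous (fA i) := by
  rcases i with i | i
  · exact mo2_cont _ _ _
  · exact mo1_cont _ _

theorem fB_cont (i : (V × V) × (Bool × Bool) ⊕ V × (Bool × Bool)) : Continuous (fB i) := by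
  rcases i with i | i
  · exact mo2_cont _ _ _
  · exact mo1_cont _ _

theorem fA_mono (i : (V × V) × (Bool × Bool) ⊕ V × (Bool × Bool)) : IsMono (fA i) := by
  rcases i with i | i
  · exact mo2_mono _ _ _
  · exact mo1_mono _ _

theorem fB_mono (i : (V × V) × (Bool × Bool) ⊕ V × (Bool × Bool)) : IsMono (fB i) := by
  rcases i with i | i
  · exact mo2_mono _ _ _
  · exact mo1_mono _ _

/-- the coefficients: `hc`, `hs` act on `α + β`, `hc'`, `hs'` on `α - β` -/
noncomputable def fC (J : V → V → ℝ) (hc hs hc' hs' : V → ℝ)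
    (i : (V × V) × (Bool × Bool) ⊕ V × (Bool × Bool)) : ℝ :=
  Sum.elim (fun i => 2 * J i.1.1 i.1.2)
    (fun i => if i.2.1 then (if i.2.2 then hc i.1 + hc' i.1 else hs i.1 - hs' i.1)
      else (if i.2.2 then hs i.1 + hs' i.1 else hc' i.1 - hc i.1)) i

theorem dup_energy (J : V → V → ℝ) (hc hs hc' hs' : V → ℝ) (α β : V → T) :
    (energy J (α + β) + ∑ x, (hc x * ct ((α + β) x) + hs x * st ((α + β) x))) +
      (energy J (α - β) + ∑ x, (hc' x * ct ((α - β) x) + hs' x * st ((α - β) x))) =
      ∑ i, fC J hc hs hc' hs' i * (fA i α * fB i β) := by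
  rw [Fintype.sum_sum_type]
  have h1 : ∑ i : (V × V) × (Bool × Bool), fC J hc hs hc' hs' (Sum.inl i) *
      (fA (Sum.inl i) α * fB (Sum.inl i) β) = energy J (α + β) + energy J (α - β) := by
    rw [Fintype.sum_prod_type, Fintype.sum_prod_type]
    unfold energy
    rw [← Finset.sum_add_distrib]
    refine Finset.sum_congr rfl fun u _ => ?_
    rw [← Finset.sum_add_distrib]
    refine Finset.sum_congr rfl fun v _ => ?_
    rw [Fintype.sum_prod_type]
    simp only [fC, Sum.elim_inl, fA, mo2, fB, Fintype.sum_bool, if_true, Bool.false_eq_true,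
      if_false]
    have e1 : (α + β) u - (α + β) v = (α u - α v) + (β u - β v) := by
      simp only [Pi.add_apply]; abel
    have e2 : (α - β) u - (α - β) v = (α u - α v) - (β u - β v) := by
      simp only [Pi.sub_apply]; abel
    rw [e1, e2, ct_add, ct_sub (α u - α v), ct_sub (α u), ct_sub (β u)]
    ring
  have h2 : ∑ i : V × (Bool × Bool), fC J hc hs hc' hs' (Sum.inr i) *
      (fA (Sum.inr i) α * fB (Sum.inr i) β) =
      ∑ x, (hc x * ct ((α + β) x) + hs x * st ((α + β) x)) +
      ∑ x, (hc' x * ct ((α - β) x) + hs' x * st ((α - β) x)) := by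
    rw [Fintype.sum_prod_type, ← Finset.sum_add_distrib]
    refine Finset.sum_congr rfl fun x _ => ?_
    rw [Fintype.sum_prod_type]
    simp only [Fintype.sum_bool, fC, fA, fB, Sum.elim_inr, mo1, if_true, Bool.false_eq_true,
      if_false, Pi.sub_apply, Pi.add_apply]
    rw [ct_sub, ct_add, st_add, st_sub]
    ring
  rw [h1, h2]
  ring

theorem pos_fAB (J : V → V → ℝ) (hJ : ∀ u v, 0 ≤ J u v) {hc hs hc' hs' : V → ℝ}
    (h0 : ∀ x, 0 ≤ hc x) (h1 : ∀ x, hc x ≤ hc' x) (h2 : ∀ x, 0 ≤ hs' x) (h3 : ∀ x, hs' x ≤ hs x)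
    {F G : (V → T) → ℝ} (hF : Continuous F) (hG : Continuous G) (mF : IsMono F) (mG : IsMono G) :
    0 ≤ ∫ p : (V → T) × (V → T), (F p.1 * G p.2) *
      Real.exp (∑ i, fC J hc hs hc' hs' i * (fA i p.1 * fB i p.2))
        ∂((haarV V).prod (haarV V)) := by
  refine pos_exp (μ := (haarV V).prod (haarV V)) (fC J hc hs hc' hs') ?_
    (fun p => F p.1 * G p.2) (fun i p => fA i p.1 * fB i p.2) (by fun_prop) ?_ ?_
  · intro i
    rcases i with i | i
    · exact mul_nonneg (by norm_num) (hJ _ _)
    · have a0 := h0 i.1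
      have a1 := h1 i.1
      have a2 := h2 i.1
      have a3 := h3 i.1
      simp only [fC, Sum.elim_inr]
      split_ifs <;> linarith
  · intro i
    exact ((fA_cont i).comp continuous_fst).mul ((fB_cont i).comp continuous_snd)
  · intro l
    have e : ∀ p : (V → T) × (V → T), (F p.1 * G p.2) *
        (l.map (fun i => fA i p.1 * fB i p.2)).prod =
        (F p.1 * (l.map (fun i => fA i p.1)).prod) * (G p.2 * (l.map (fun i => fB i p.2)).prod) := by
      intro p
      rw [List.prod_map_mul]
      ring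
    simp_rw [e]
    rw [integral_prod_mul (μ := haarV V) (ν := haarV V)
      (fun x : V → T => F x * (l.map (fun i => fA i x)).prod)
      (fun x : V → T => G x * (l.map (fun i => fB i x)).prod)]
    exact mul_nonneg (mF.mul (IsMono.list_prod fA_mono l)).integral_nonneg
      (mG.mul (IsMono.list_prod fB_mono l)).integral_nonneg

/-- weight of the fields -/
noncomputable def hG (J : V → V → ℝ) (hc hs : V → ℝ) (θ : V → T) : ℝ :=
  energy J θ + ∑ x, (hc x * ct (θ x) + hs x * st (θ x))

theorem hG_cont (J : V → V → ℝ) (hc hs : V → ℝ) : Continuous (hG J hc hs) := by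
  unfold hG; fun_prop

theorem unG_one_pos (J : V → V → ℝ) (hc hs : V → ℝ) : 0 < unG J hc hs (fun _ => 1) := by
  unfold unG
  simp only [one_mul]
  have hcont : Continuous fun θ : V → T => Real.exp (hG J hc hs θ) :=
    Real.continuous_exp.comp (hG_cont J hc hs)
  exact integral_pos_of_integrable_nonneg_nonzero (x := 0) hcont
    (integrable_of_continuous hcont) (fun x => (Real.exp_pos _).le) (Real.exp_pos _).ne'

/-- (R1) the transversal correlations decrease when the cosine field grows and the sine field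
decreases -/
theorem field_mono2 (J : V → V → ℝ) (hJ : ∀ u v, 0 ≤ J u v) {hc hs hc' hs' : V → ℝ}
    (h0 : ∀ x, 0 ≤ hc x) (h1 : ∀ x, hc x ≤ hc' x) (h2 : ∀ x, 0 ≤ hs' x) (h3 : ∀ x, hs' x ≤ hs x)
    (x y : V) :
    unG J hc' hs' (fun θ => st (θ x) * st (θ y)) * unG J hc hs (fun _ => 1) ≤
      unG J hc hs (fun θ => st (θ x) * st (θ y)) * unG J hc' hs' (fun _ => 1) := by
  classical
  have cG := hG_cont J hc hs
  have cG' := hG_cont J hc' hs'
  set F : (V → T) × (V → T) → ℝ := fun p =>
    (st (p.1 x) * st (p.1 y) - st (p.2 x) * st (p.2 y)) *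
      (Real.exp (hG J hc hs p.1) * Real.exp (hG J hc' hs' p.2)) with hF
  have hFc : Continuous F := by rw [hF]; fun_prop
  have h4 : ∫ p, F p ∂((haarV V).prod (haarV V)) =
      unG J hc hs (fun θ => st (θ x) * st (θ y)) * unG J hc' hs' (fun _ => 1) -
        unG J hc hs (fun _ => 1) * unG J hc' hs' (fun θ => st (θ x) * st (θ y)) := by
    have e : ∀ p : (V → T) × (V → T), F p =
        (st (p.1 x) * st (p.1 y) * Real.exp (hG J hc hs p.1)) *
          (1 * Real.exp (hG J hc' hs' p.2)) -
        (1 * Real.exp (hG J hc hs p.1)) *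
          (st (p.2 x) * st (p.2 y) * Real.exp (hG J hc' hs' p.2)) := by
      intro p
      simp only [hF]
      ring
    simp_rw [e]
    rw [integral_sub (integrable_of_continuous (by fun_prop))
      (integrable_of_continuous (by fun_prop)),
      integral_prod_mul (μ := haarV V) (ν := haarV V)
        (fun θ : V → T => st (θ x) * st (θ y) * Real.exp (hG J hc hs θ))
        (fun θ : V → T => 1 * Real.exp (hG J hc' hs' θ)),
      integral_prod_mul (μ := haarV V) (ν := haarV V)
        (fun θ : V → T => 1 * Real.exp (hG J hc hs θ))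
        (fun θ : V → T => st (θ x) * st (θ y) * Real.exp (hG J hc' hs' θ))]
    rfl
  have h5 : 0 ≤ ∫ p, F p ∂((haarV V).prod (haarV V)) := by
    rw [integral_dup (μ := haarV V) hdivV hFc]
    have e : ∀ p : (V → T) × (V → T), F (p.1 + p.2, p.1 - p.2) =
        2 * (((st (p.1 x) * ct (p.1 y)) * (ct (p.2 x) * st (p.2 y))) *
          Real.exp (∑ i, fC J hc hs hc' hs' i * (fA i p.1 * fB i p.2))) +
        2 * (((ct (p.1 x) * st (p.1 y)) * (st (p.2 x) * ct (p.2 y))) *
          Real.exp (∑ i, fC J hc hs hc' hs' i * (fA i p.1 * fB i p.2))) := by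
      intro p
      rw [← dup_energy]
      simp only [hF, hG]
      rw [Real.exp_add (energy J (p.1 + p.2) + _)]
      simp only [Pi.add_apply, Pi.sub_apply, st_add, st_sub]
      ring
    simp_rw [e]
    have cA := fun i => fA_cont (V := V) i
    have cB := fun i => fB_cont (V := V) i
    rw [integral_add (integrable_of_continuous (by fun_prop))
      (integrable_of_continuous (by fun_prop)), integral_const_mul, integral_const_mul]
    have p1 := pos_fAB J hJ h0 h1 h2 h3 (F := fun α => st (α x) * ct (α y))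
      (G := fun α => ct (α x) * st (α y)) (by fun_prop) (by fun_prop)
      ((IsMono.st x).mul (IsMono.ct y)) ((IsMono.ct x).mul (IsMono.st y))
    have p2 := pos_fAB J hJ h0 h1 h2 h3 (F := fun α => ct (α x) * st (α y))
      (G := fun α => st (α x) * ct (α y)) (by fun_prop) (by fun_prop)
      ((IsMono.ct x).mul (IsMono.st y)) ((IsMono.st x).mul (IsMono.ct y))
    linarith only [p1, p2]
  rw [h4] at h5
  linarith

/-- exchange of the roles of cosines and sines -/
theorem unG_swap (J : V → V → ℝ) (hc hs : V → ℝ) (x y : V) :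
    unG J hc hs (fun θ => ct (θ x) * ct (θ y)) = unG J hs hc (fun θ => st (θ x) * st (θ y)) ∧
      unG J hc hs (fun _ => 1) = unG J hs hc (fun _ => 1) := by
  have key : ∀ f g : (V → T) → ℝ, Continuous g →
      (∀ θ : V → T, f θ = g (fun v => ((Real.pi / 2 : ℝ) : T) - θ v)) →
      unG J hc hs f = unG J hs hc g := by
    intro f g hg hfg
    unfold unG
    let γ : V → T := fun _ => ((Real.pi / 2 : ℝ) : T)
    have e1 : ∀ θ : V → T, f θ * Real.exp (energy J θ + ∑ x, (hc x * ct (θ x) + hs x * st (θ x))) =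
        (fun ω : V → T => g ω * Real.exp (energy J ω + ∑ x, (hs x * ct (ω x) + hc x * st (ω x))))
          (γ - θ) := by
      intro θ
      have hE : energy J (γ - θ) = energy J θ := by
        unfold energy
        refine Finset.sum_congr rfl fun u _ => Finset.sum_congr rfl fun v _ => ?_
        have : (γ - θ) u - (γ - θ) v = -(θ u - θ v) := by
          simp only [Pi.sub_apply, γ]; abel
        rw [this, ct_neg]
      have hs1 : ∀ v : V, ct ((γ - θ) v) = st (θ v) := fun v => by
        simp only [Pi.sub_apply, γ]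
        exact Real.Angle.cos_pi_div_two_sub (θ v)
      have hs2 : ∀ v : V, st ((γ - θ) v) = ct (θ v) := fun v => by
        simp only [Pi.sub_apply, γ]
        exact Real.Angle.sin_pi_div_two_sub (θ v)
      simp only [hE, hs1, hs2]
      rw [hfg θ]
      have : (fun v => ((Real.pi / 2 : ℝ) : T) - θ v) = γ - θ := rfl
      rw [this]
      congr 2
      congr 1
      exact Finset.sum_congr rfl fun v _ => by ring
    simp_rw [e1]
    exact integral_sub_left_eq_self (μ := haarV V)
      (fun ω : V → T => g ω * Real.exp (energy J ω + ∑ x, (hs x * ct (ω x) + hc x * st (ω x)))) γ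
  refine ⟨key _ _ (by fun_prop) fun θ => ?_, key _ _ continuous_const fun θ => rfl⟩
  have h : ∀ v : V, st (((Real.pi / 2 : ℝ) : T) - θ v) = ct (θ v) := fun v =>
    Real.Angle.sin_pi_div_two_sub (θ v)
  simp only [h]

/-- both correlations are at least the transversal correlation in the full cosine field -/
theorem corr_ge (J : V → V → ℝ) (hJ : ∀ u v, 0 ≤ J u v) {hc hs h : V → ℝ}
    (h0 : ∀ x, 0 ≤ hc x) (h1 : ∀ x, hc x ≤ h x) (h2 : ∀ x, 0 ≤ hs x) (h3 : ∀ x, hs x ≤ h x)
    (x y : V) :
    unG J h 0 (fun θ => st (θ x) * st (θ y)) / unG J h 0 (fun _ => 1) ≤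
      unG J hc hs (fun θ => st (θ x) * st (θ y)) / unG J hc hs (fun _ => 1) ∧
    unG J h 0 (fun θ => st (θ x) * st (θ y)) / unG J h 0 (fun _ => 1) ≤
      unG J hc hs (fun θ => ct (θ x) * ct (θ y)) / unG J hc hs (fun _ => 1) := by
  have p1 := unG_one_pos J h 0
  have p2 := unG_one_pos J hc hs
  have p3 := unG_one_pos J hs hc
  constructor
  · rw [div_le_div_iff₀ p1 p2]
    exact field_mono2 J hJ h0 h1 (fun _ => le_refl _) h2 x y
  · obtain ⟨e1, e2⟩ := unG_swap J hc hs x y
    rw [e1, e2, div_le_div_iff₀ p1 p3]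
    exact field_mono2 J hJ h2 h3 (fun _ => le_refl _) h0 x y

end Vale.Agent.P159.H556
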