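import Vale.Agent.P159.H556.AsmR6
import Vale.Agent.P159.H670.R3
import Vale.Agent.P159.H399.Growth

/-!
Final statements: lower bounds of the correlation length, and growth of the correlations with the
inverse temperature.
-/

open MeasureTheory Filter Topology
open scoped BigOperators

namespace Vale.Agent.P159.H556

open Vale.Agent.P159

/-- the exponents of the lower bound are above those known before -/
theorem exp_improved :
    1 / (2 - 1 / (2 * Real.pi * helicity bCrit)) < 1 / (2 - 1 / (Real.pi * helicity bCrit)) ∧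
    1 / (2 - 2 / (7 * Real.pi)) < 1 / (2 - 1 / (Real.pi * helicity bCrit)) ∧
    1 / (2 - 1 / (Real.pi * helicity bCrit)) ≤ 2 / 3 := by
  have hpi := Real.pi_pos
  have hY := pi_hel
  have hY7 := H170.hel_bCrit_lt
  have hp : 0 < Real.pi * helicity bCrit := by linarith
  have ha : 1 / (Real.pi * helicity bCrit) ≤ 1 / 2 :=
    one_div_le_one_div_of_le (by norm_num) hY
  have h2 : 1 / (2 * Real.pi * helicity bCrit) < 1 / (Real.pi * helicity bCrit) := by
    apply one_div_lt_one_div_of_lt hp; linarith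
  have h3 : 2 / (7 * Real.pi) < 1 / (Real.pi * helicity bCrit) := by
    rw [div_lt_div_iff₀ (by positivity) hp]
    nlinarith
  refine ⟨one_div_lt_one_div_of_lt (by linarith) (by linarith),
    one_div_lt_one_div_of_lt (by linarith) (by linarith), ?_⟩
  rw [div_le_div_iff₀ (by linarith) (by norm_num)]
  linarith

/-- everything -/
theorem final :
    -- the correlation length below the critical point
    (∀ ν : ℝ, ν < 1 / (2 - 1 / (Real.pi * helicity bCrit)) →
      ∃ c δ : ℝ, 0 < c ∧ 0 < δ ∧ ∀ b : ℝ, bCrit - δ < b → b < bCrit →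
        c * (bCrit - b) ^ (-ν) ≤ corrLength b) ∧
    (∃ c δ : ℝ, 0 < c ∧ 0 < δ ∧ ∀ b : ℝ, bCrit - δ < b → b < bCrit →
        c * (bCrit - b) ^ (-(1 / (2 - 2 / (7 * Real.pi)))) ≤ corrLength b) ∧
    (1 / (2 - 1 / (2 * Real.pi * helicity bCrit)) < 1 / (2 - 1 / (Real.pi * helicity bCrit)) ∧
      1 / (2 - 2 / (7 * Real.pi)) < 1 / (2 - 1 / (Real.pi * helicity bCrit))) ∧
    -- growth of the correlations with the inverse temperature
    (∀ b b' : ℝ, 0 < b → b ≤ b' → ∀ x : ℤ × ℤ, x ≠ 0 →
      corrInf b x * ((8 * b * ((max |x.1| |x.2| : ℤ) : ℝ) + 1) / (8 * b + 1)) ^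
        ((1 / b - 1 / b') / 8) ≤ corrInf b' x) :=
  have r3 : R3 := H670.r3
  ⟨r6 r3, r6 r3 _ exp_improved.2.1, ⟨exp_improved.1, exp_improved.2.1⟩,
    fun b b' hb hbb x hx => H399.growth b b' hb hbb x hx⟩

end Vale.Agent.P159.H556
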