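import Vale.Agent.P159.Bdl.B9

/-!
Monotonicity of Messager and Miracle-Sole for the two-point function of the XY model.
-/

open MeasureTheory Filter Topology
open scoped BigOperators

set_option linter.unusedSectionVars false

namespace Vale.Agent.P159.H556

open Vale.Agent.P159 Vale.Agent.P159.XY

section Pair

variable {P : Type*} [Fintype P]

/-- index of the generators -/
abbrev IG (P : Type*) : Type _ := ((P × P) × (Bool × Bool) ⊕ P × Bool) ⊕ P

/-- first factors -/
noncomputable def hA (i : IG P) : (P → T) → ℝ := Sum.elim (fun i => gA i) (fun _ _ => 1) i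

/-- second factors -/
noncomputable def hB (i : IG P) : (P → T) → ℝ :=
  Sum.elim (fun i => gB i) (fun z β => ct (β z) * ct (β z)) i

/-- coefficients -/
noncomputable def cH (J : P → P → ℝ) (K : P → ℝ) (i : IG P) : ℝ :=
  Sum.elim (fun i => cAB J 0 i) (fun z => 4 * K z) i

theorem hA_cont (i : IG P) : Continuous (hA i) := by
  rcases i with i | z
  · exact gA_cont i
  · exact continuous_const

theorem hB_cont (i : IG P) : Continuous (hB i) := by
  rcases i with i | z
  · exact gB_cont i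
  · change Continuous fun β : P → T => ct (β z) * ct (β z)
    fun_prop

theorem hA_mono (i : IG P) : IsMono (hA i) := by
  rcases i with i | z
  · exact gA_mono i
  · exact IsMono.one

theorem hB_mono (i : IG P) : IsMono (hB i) := by
  classical
  rcases i with i | z
  · exact gB_mono i
  · exact (IsMono.ct z).mul (IsMono.ct z)

theorem cH_nonneg {J : P → P → ℝ} (hJ : ∀ u v, 0 ≤ J u v) {K : P → ℝ} (hK : ∀ z, 0 ≤ K z)
    (i : IG P) : 0 ≤ cH J K i := by
  rcases i with (i | i) | z
  · exact mul_nonneg (by norm_num) (hJ _ _)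
  · exact le_refl _
  · exact mul_nonneg (by norm_num) (hK z)

theorem pos_H {J : P → P → ℝ} (hJ : ∀ u v, 0 ≤ J u v) {K : P → ℝ} (hK : ∀ z, 0 ≤ K z)
    {F G : (P → T) → ℝ} (hF : Continuous F) (hG : Continuous G) (mF : IsMono F) (mG : IsMono G) :
    0 ≤ ∫ p : (P → T) × (P → T), (F p.1 * G p.2) *
      Real.exp (∑ i, cH J K i * (hA i p.1 * hB i p.2)) ∂((haarV P).prod (haarV P)) := by
  refine pos_exp (μ := (haarV P).prod (haarV P)) (cH J K) (cH_nonneg hJ hK)
    (fun p => F p.1 * G p.2) (fun i p => hA i p.1 * hB i p.2) (by fun_prop) ?_ ?_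
  · intro i
    exact ((hA_cont i).comp continuous_fst).mul ((hB_cont i).comp continuous_snd)
  · intro l
    have e : ∀ p : (P → T) × (P → T), (F p.1 * G p.2) *
        (l.map (fun i => hA i p.1 * hB i p.2)).prod =
        (F p.1 * (l.map (fun i => hA i p.1)).prod) * (G p.2 * (l.map (fun i => hB i p.2)).prod) := by
      intro p
      rw [List.prod_map_mul]
      ring
    simp_rw [e]
    rw [integral_prod_mul (μ := haarV P) (ν := haarV P)
      (fun x : P → T => F x * (l.map (fun i => hA i x)).prod)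
      (fun x : P → T => G x * (l.map (fun i => hB i x)).prod)]
    exact mul_nonneg (mF.mul (IsMono.list_prod hA_mono l)).integral_nonneg
      (mG.mul (IsMono.list_prod hB_mono l)).integral_nonneg

/-- energy of two copies coupled site by site -/
noncomputable def E2 (J : P → P → ℝ) (K : P → ℝ) (p : (P → T) × (P → T)) : ℝ :=
  energy J p.1 + energy J p.2 + ∑ z, 2 * K z * ct (p.1 z - p.2 z)

theorem E2_cont (J : P → P → ℝ) (K : P → ℝ) : Continuous (E2 J K) := by
  unfold E2
  fun_prop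

theorem E2_dup (J : P → P → ℝ) (K : P → ℝ) (α β : P → T) :
    E2 J K (α + β, α - β) = (∑ i, cH J K i * (hA i α * hB i β)) + -(∑ z, 2 * K z) := by
  have h1 := energy_dup J 0 α β
  simp only [Pi.zero_apply, zero_mul, Finset.sum_const_zero, add_zero] at h1
  unfold E2
  simp only
  rw [Fintype.sum_sum_type]
  have h2 : ∑ i, cH J K (Sum.inl i) * (hA (Sum.inl i) α * hB (Sum.inl i) β) =
      ∑ i, cAB J 0 i * (gA i α * gB i β) := rfl
  have h3 : ∑ z, cH J K (Sum.inr z) * (hA (Sum.inr z) α * hB (Sum.inr z) β) =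
      ∑ z, 4 * K z * (1 * (ct (β z) * ct (β z))) := rfl
  rw [h2, h3, ← h1]
  have h4 : ∀ z, 2 * K z * ct ((α + β) z - (α - β) z) =
      4 * K z * (1 * (ct (β z) * ct (β z))) - 2 * K z := by
    intro z
    have e : (α + β) z - (α - β) z = β z + β z := by
      simp only [Pi.add_apply, Pi.sub_apply]; abel
    rw [e, ct_add]
    have h5 := ct_sub (β z) (β z)
    rw [sub_self, ct_zero] at h5
    linear_combination (2 * K z) * h5
  simp_rw [h4]
  rw [Finset.sum_sub_distrib]
  ring

theorem pair_pos {J : P → P → ℝ} (hJ : ∀ u v, 0 ≤ J u v) {K : P → ℝ} (hK : ∀ z, 0 ≤ K z)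
    (x y : P) :
    0 ≤ ∫ p : (P → T) × (P → T), ((ct (p.1 x - p.1 y) + ct (p.2 x - p.2 y)) -
      (ct (p.1 x - p.2 y) + ct (p.2 x - p.1 y))) * Real.exp (E2 J K p)
        ∂((haarV P).prod (haarV P)) := by
  classical
  have hE := E2_cont J K
  rw [integral_dup (μ := haarV P) hdivV (by fun_prop)]
  have e : ∀ p : (P → T) × (P → T), ((ct ((p.1 + p.2) x - (p.1 + p.2) y) +
      ct ((p.1 - p.2) x - (p.1 - p.2) y)) - (ct ((p.1 + p.2) x - (p.1 - p.2) y) +
        ct ((p.1 - p.2) x - (p.1 + p.2) y))) * Real.exp (E2 J K (p.1 + p.2, p.1 - p.2)) =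
      4 * Real.exp (-(∑ z, 2 * K z)) * (((ct (p.1 x) * ct (p.1 y)) * (st (p.2 x) * st (p.2 y))) *
          Real.exp (∑ i, cH J K i * (hA i p.1 * hB i p.2))) +
      4 * Real.exp (-(∑ z, 2 * K z)) * (((st (p.1 x) * st (p.1 y)) * (st (p.2 x) * st (p.2 y))) *
          Real.exp (∑ i, cH J K i * (hA i p.1 * hB i p.2))) := by
    intro p
    rw [E2_dup, Real.exp_add]
    have e1 : (p.1 + p.2) x - (p.1 + p.2) y = (p.1 x - p.1 y) + (p.2 x - p.2 y) := by
      simp only [Pi.add_apply]; abel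
    have e2 : (p.1 - p.2) x - (p.1 - p.2) y = (p.1 x - p.1 y) - (p.2 x - p.2 y) := by
      simp only [Pi.sub_apply]; abel
    have e3 : (p.1 + p.2) x - (p.1 - p.2) y = (p.1 x - p.1 y) + (p.2 x + p.2 y) := by
      simp only [Pi.add_apply, Pi.sub_apply]; abel
    have e4 : (p.1 - p.2) x - (p.1 + p.2) y = (p.1 x - p.1 y) - (p.2 x + p.2 y) := by
      simp only [Pi.add_apply, Pi.sub_apply]; abel
    rw [e1, e2, e3, e4]
    rw [ct_add (p.1 x - p.1 y), ct_sub (p.1 x - p.1 y) (p.2 x - p.2 y),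
      ct_add (p.1 x - p.1 y) (p.2 x + p.2 y), ct_sub (p.1 x - p.1 y) (p.2 x + p.2 y),
      ct_sub (p.2 x), ct_add (p.2 x), ct_sub (p.1 x)]
    ring
  have cA := fun i => hA_cont (P := P) i
  have cB := fun i => hB_cont (P := P) i
  simp only at e ⊢
  simp_rw [e]
  rw [integral_add (integrable_of_continuous (by fun_prop))
    (integrable_of_continuous (by fun_prop)), integral_const_mul, integral_const_mul]
  have p1 := pos_H hJ hK (F := fun α => ct (α x) * ct (α y))
    (G := fun α => st (α x) * st (α y)) (by fun_prop) (by fun_prop)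
    ((IsMono.ct x).mul (IsMono.ct y)) ((IsMono.st x).mul (IsMono.st y))
  have p2 := pos_H hJ hK (F := fun α => st (α x) * st (α y))
    (G := fun α => st (α x) * st (α y)) (by fun_prop) (by fun_prop)
    ((IsMono.st x).mul (IsMono.st y)) ((IsMono.st x).mul (IsMono.st y))
  have hc : 0 ≤ 4 * Real.exp (-(∑ z, 2 * K z)) := by positivity
  exact add_nonneg (mul_nonneg hc p1) (mul_nonneg hc p2)

/-- couplings of two copies -/
noncomputable def JJ [DecidableEq P] (J : P → P → ℝ) (K : P → ℝ) : P ⊕ P → P ⊕ P → ℝ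
  | Sum.inl u, Sum.inl v => J u v
  | Sum.inr u, Sum.inr v => J u v
  | Sum.inl u, Sum.inr v => if u = v then K u else 0
  | Sum.inr u, Sum.inl v => if u = v then K u else 0

theorem energy_JJ [DecidableEq P] (J : P → P → ℝ) (K : P → ℝ) (θ : P ⊕ P → T) :
    energy (JJ J K) θ = E2 J K (fun z => θ (Sum.inl z), fun z => θ (Sum.inr z)) := by
  unfold energy E2 energy
  simp only [Fintype.sum_sum_type, JJ, Finset.sum_add_distrib, ite_mul, zero_mul,
    Finset.sum_ite_eq, Finset.mem_univ, if_true]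
  have h : ∀ z, ct (θ (Sum.inr z) - θ (Sum.inl z)) = ct (θ (Sum.inl z) - θ (Sum.inr z)) := by
    intro z
    rw [← neg_sub, ct_neg]
  simp_rw [h]
  have h2 : ∑ z, 2 * K z * ct (θ (Sum.inl z) - θ (Sum.inr z)) =
      ∑ z, K z * ct (θ (Sum.inl z) - θ (Sum.inr z)) +
        ∑ z, K z * ct (θ (Sum.inl z) - θ (Sum.inr z)) := by
    rw [← Finset.sum_add_distrib]
    exact Finset.sum_congr rfl fun z _ => by ring
  rw [h2]
  ring

theorem integral_pair (F : (P → T) × (P → T) → ℝ) :
    ∫ θ : P ⊕ P → T, F (fun z => θ (Sum.inl z), fun z => θ (Sum.inr z)) ∂haarV (P ⊕ P) =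
      ∫ p, F p ∂((haarV P).prod (haarV P)) := by
  have h := measurePreserving_sumPiEquivProdPi (ι := P) (ι' := P) (X := fun _ => T)
    (fun _ => (AddCircle.haarAddCircle : Measure T))
  exact h.integral_comp' (g := F)

/-- reflection inequality for two copies -/
theorem corr_JJ_le [DecidableEq P] {J : P → P → ℝ} (hJ : ∀ u v, 0 ≤ J u v) {K : P → ℝ}
    (hK : ∀ z, 0 ≤ K z) (x y : P) :
    XY.corr (JJ J K) (Sum.inl x) (Sum.inr y) ≤ XY.corr (JJ J K) (Sum.inl x) (Sum.inl y) := by
  have hJJ : ∀ u v, 0 ≤ JJ J K u v := by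
    rintro (u | u) (v | v) <;> simp only [JJ]
    · exact hJ u v
    · split_ifs
      · exact hK u
      · exact le_refl _
    · split_ifs
      · exact hK u
      · exact le_refl _
    · exact hJ u v
  have hsw : ∀ u v, JJ J K u v = JJ J K (Equiv.sumComm P P u) (Equiv.sumComm P P v) := by
    rintro (u | u) (v | v) <;> rfl
  have s1 := corr_equiv (Equiv.sumComm P P) hJJ hsw (Sum.inl x) (Sum.inl y)
  have s2 := corr_equiv (Equiv.sumComm P P) hJJ hsw (Sum.inl x) (Sum.inr y)
  have s1' : XY.corr (JJ J K) (Sum.inl x) (Sum.inl y) = XY.corr (JJ J K) (Sum.inr x) (Sum.inr y) := s1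
  have s2' : XY.corr (JJ J K) (Sum.inl x) (Sum.inr y) = XY.corr (JJ J K) (Sum.inr x) (Sum.inl y) := s2
  have hE := E2_cont J K
  have key := pair_pos hJ hK x y
  rw [← integral_pair (fun p : (P → T) × (P → T) => ((ct (p.1 x - p.1 y) + ct (p.2 x - p.2 y)) -
      (ct (p.1 x - p.2 y) + ct (p.2 x - p.1 y))) * Real.exp (E2 J K p))] at key
  simp only [← energy_JJ] at key
  have h1 : 0 ≤ un (JJ J K) (fun θ => (ct (θ (Sum.inl x) - θ (Sum.inl y)) +
      ct (θ (Sum.inr x) - θ (Sum.inr y))) - (ct (θ (Sum.inl x) - θ (Sum.inr y)) +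
      ct (θ (Sum.inr x) - θ (Sum.inl y)))) := key
  have h2 : 0 ≤ ev (JJ J K) (fun θ => (ct (θ (Sum.inl x) - θ (Sum.inl y)) +
      ct (θ (Sum.inr x) - θ (Sum.inr y))) - (ct (θ (Sum.inl x) - θ (Sum.inr y)) +
      ct (θ (Sum.inr x) - θ (Sum.inl y)))) := div_nonneg h1 (part_pos _).le
  rw [ev_sub _ (by fun_prop) (by fun_prop), ev_add _ (by fun_prop) (by fun_prop),
    ev_add _ (by fun_prop) (by fun_prop)] at h2
  have h3 : 0 ≤ (XY.corr (JJ J K) (Sum.inl x) (Sum.inl y) + XY.corr (JJ J K) (Sum.inr x) (Sum.inr y)) -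
    (XY.corr (JJ J K) (Sum.inl x) (Sum.inr y) + XY.corr (JJ J K) (Sum.inr x) (Sum.inl y)) := h2
  rw [← s1', ← s2'] at h3
  linarith

end Pair

/-! ### The lattice -/

/-- the part of the rectangle below the line -/
noncomputable def lowS (N k : ℤ) : Finset (ℤ × ℤ) := Finset.Icc (-N, k - N) (N, k - 1)

/-- the rectangle -/
noncomputable def allS (N k : ℤ) : Finset (ℤ × ℤ) := Finset.Icc (-N, k - N) (N, k - 1 + N)

theorem mem_lowS {N k : ℤ} {u : ℤ × ℤ} :
    u ∈ lowS N k ↔ (-N ≤ u.1 ∧ k - N ≤ u.2) ∧ u.1 ≤ N ∧ u.2 ≤ k - 1 := by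
  unfold lowS
  rw [Finset.mem_Icc, Prod.le_def, Prod.le_def]

theorem mem_allS {N k : ℤ} {u : ℤ × ℤ} :
    u ∈ allS N k ↔ (-N ≤ u.1 ∧ k - N ≤ u.2) ∧ u.1 ≤ N ∧ u.2 ≤ k - 1 + N := by
  unfold allS
  rw [Finset.mem_Icc, Prod.le_def, Prod.le_def]

/-- the reflection -/
def rho (k : ℤ) (u : ℤ × ℤ) : ℤ × ℤ := (u.1, 2 * k - 1 - u.2)

/-- the two halves make up the rectangle -/
noncomputable def eHalf (N k : ℤ) : lowS N k ⊕ lowS N k → allS N k :=
  Sum.elim (fun u => ⟨u, by
      have := mem_lowS.1 u.2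
      rw [mem_allS]
      refine ⟨this.1, this.2.1, ?_⟩
      have := this.1.1
      omega⟩)
    (fun u => ⟨rho k u, by
      have := mem_lowS.1 u.2
      rw [mem_allS]
      unfold rho
      refine ⟨⟨this.1.1, ?_⟩, this.2.1, ?_⟩ <;> simp only <;> omega⟩)

theorem eHalf_bij (N k : ℤ) : Function.Bijective (eHalf N k) := by
  constructor
  · rintro (u | u) (v | v) h
    · have h1 : ((eHalf N k (Sum.inl u) : allS N k) : ℤ × ℤ) = (eHalf N k (Sum.inl v) : allS N k) := by
        rw [h]
      have h2 : (u : ℤ × ℤ) = v := h1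
      rw [Subtype.ext h2]
    · exfalso
      have h1 : (u : ℤ × ℤ) = rho k v := congrArg Subtype.val h
      have hu := mem_lowS.1 u.2
      have hv := mem_lowS.1 v.2
      rw [h1] at hu
      unfold rho at hu
      simp only at hu
      omega
    · exfalso
      have h1 : rho k u = (v : ℤ × ℤ) := congrArg Subtype.val h
      have hu := mem_lowS.1 u.2
      have hv := mem_lowS.1 v.2
      rw [← h1] at hv
      unfold rho at hv
      simp only at hv
      omega
    · have h1 : rho k u = rho k v := congrArg Subtype.val h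
      unfold rho at h1
      simp only [Prod.mk.injEq] at h1
      have : (u : ℤ × ℤ) = v := Prod.ext h1.1 (by omega)
      rw [Subtype.ext this]
  · rintro ⟨w, hw⟩
    have hw' := mem_allS.1 hw
    by_cases h : w.2 ≤ k - 1
    · exact ⟨Sum.inl ⟨w, mem_lowS.2 ⟨hw'.1, hw'.2.1, h⟩⟩, rfl⟩
    · refine ⟨Sum.inr ⟨rho k w, mem_lowS.2 ?_⟩, Subtype.ext ?_⟩
      · unfold rho
        simp only
        omega
      · change rho k (rho k w) = w
        unfold rho
        refine Prod.ext rfl ?_
        simp only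
        omega

theorem step {b : ℝ} (hb : 0 ≤ b) (i k : ℤ) (hk : 1 ≤ k) : C b (i, k) ≤ C b (i, k - 1) := by
  classical
  have hbd : ∀ R : ℕ, KS (box R) b 0 (i, k) ≤ C b (i, k - 1) := by
    intro R
    by_cases hik : ((i, k) : ℤ × ℤ) ∈ box R
    swap
    · have : KS (box R) b 0 (i, k) = 0 := by
        unfold KS; rw [dif_neg fun h => hik h.2]
      rw [this]
      exact C_nonneg hb _
    set N : ℤ := (R : ℤ) + k with hN
    have hsub : box R ⊆ allS N k := by
      intro u hu
      rw [mem_box] at hu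
      obtain ⟨hu1, hu2⟩ := hu
      have a1 := abs_le.1 hu1
      have a2 := abs_le.1 hu2
      rw [mem_allS]
      refine ⟨⟨?_, ?_⟩, ?_, ?_⟩ <;> omega
    have hik' := mem_box.1 hik
    simp only at hik'
    have b1 := abs_le.1 hik'.1
    have b2 := abs_le.1 hik'.2
    have h0 : (0 : ℤ × ℤ) ∈ lowS N k := by
      rw [mem_lowS]
      simp only [Prod.fst_zero, Prod.snd_zero]
      omega
    have hy : ((i, k - 1) : ℤ × ℤ) ∈ lowS N k := by
      rw [mem_lowS]
      simp only
      refine ⟨⟨?_, ?_⟩, ?_, ?_⟩ <;> omega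
    refine (KS_mono hsub hb 0 (i, k)).trans ?_
    refine le_trans ?_ (KS_le_CI (allS N k) hb 0 (i, k - 1))
    have h0' : (0 : ℤ × ℤ) ∈ allS N k := hsub (zero_mem_box R)
    have hk' : ((i, k) : ℤ × ℤ) ∈ allS N k := hsub hik
    have hy' : ((i, k - 1) : ℤ × ℤ) ∈ allS N k := (eHalf N k (Sum.inl ⟨_, hy⟩)).2
    rw [KS_of_mem b h0' hk', KS_of_mem b h0' hy']
    set J : lowS N k → lowS N k → ℝ := fun u v => b * A u v with hJdef
    set K : lowS N k → ℝ := fun u => b * A u (rho k u) with hKdef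
    have hJ : ∀ u v, 0 ≤ J u v := fun u v => mul_nonneg hb (A_nonneg _ _)
    have hK : ∀ u, 0 ≤ K u := fun u => mul_nonneg hb (A_nonneg _ _)
    have key := corr_JJ_le hJ hK ⟨0, h0⟩ ⟨(i, k - 1), hy⟩
    have hJJ : ∀ u v, 0 ≤ JJ J K u v := by
      rintro (u | u) (v | v) <;> simp only [JJ]
      · exact hJ u v
      · split_ifs
        · exact hK u
        · exact le_refl _
      · split_ifs
        · exact hK u
        · exact le_refl _
      · exact hJ u v
    have hcross : ∀ u v : lowS N k, b * A u (rho k v) = if u = v then K u else 0 := by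
      intro u v
      have hu := mem_lowS.1 u.2
      have hv := mem_lowS.1 v.2
      split_ifs with h
      · rw [h]
      · rw [A_eq, if_neg, mul_zero]
        intro h1
        unfold rho at h1
        simp only at h1
        apply h
        apply Subtype.ext
        refine Prod.ext ?_ ?_ <;> omega
    have hcoup : ∀ u v, JJ J K u v = (fun u v : allS N k => b * A u v)
        (Equiv.ofBijective _ (eHalf_bij N k) u) (Equiv.ofBijective _ (eHalf_bij N k) v) := by
      rintro (u | u) (v | v)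
      · rfl
      · change (if u = v then K u else 0) = b * A u (rho k v)
        rw [hcross]
      · change (if u = v then K u else 0) = b * A (rho k u) v
        rw [A_symm, hcross v u]
        by_cases h : u = v
        · rw [if_pos h, if_pos h.symm, h]
        · rw [if_neg h, if_neg fun h' => h h'.symm]
      · change b * A u v = b * A (rho k u) (rho k v)
        congr 1
        apply A_congr
        unfold rho
        simp only
        omega
    have t1 := corr_equiv (J' := fun u v : allS N k => b * A u v)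
      (Equiv.ofBijective _ (eHalf_bij N k)) hJJ hcoup
      (Sum.inl ⟨0, h0⟩) (Sum.inr ⟨(i, k - 1), hy⟩)
    have t2 := corr_equiv (J' := fun u v : allS N k => b * A u v)
      (Equiv.ofBijective _ (eHalf_bij N k)) hJJ hcoup
      (Sum.inl ⟨0, h0⟩) (Sum.inl ⟨(i, k - 1), hy⟩)
    rw [t1, t2] at key
    have w0 : Equiv.ofBijective _ (eHalf_bij N k) (Sum.inl ⟨0, h0⟩) = ⟨0, h0'⟩ := rfl
    have w1 : Equiv.ofBijective _ (eHalf_bij N k) (Sum.inl ⟨(i, k - 1), hy⟩) =
      ⟨(i, k - 1), hy'⟩ := rfl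
    have w2 : Equiv.ofBijective _ (eHalf_bij N k) (Sum.inr ⟨(i, k - 1), hy⟩) =
        ⟨(i, k), hk'⟩ := by
      apply Subtype.ext
      change rho k (i, k - 1) = (i, k)
      unfold rho
      refine Prod.ext rfl ?_
      simp only
      omega
    rw [w0, w1, w2] at key
    exact key
  unfold C CI
  exact ciSup_le hbd

theorem axis_anti {b : ℝ} (hb : 0 ≤ b) (n : ℕ) :
    C b (((n + 1 : ℕ) : ℤ), 0) ≤ C b ((n : ℤ), 0) := by
  have h := step hb 0 ((n : ℤ) + 1) (by omega)
  rw [add_sub_cancel_right] at h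
  have e1 := C_swap hb (0, (n : ℤ) + 1)
  have e2 := C_swap hb (0, (n : ℤ))
  rw [Prod.swap_prod_mk] at e1 e2
  rw [← e1, ← e2] at h
  push_cast
  exact h

theorem C_le_axis {b : ℝ} (hb : 0 ≤ b) (i : ℤ) (j : ℕ) : C b (i, (j : ℤ)) ≤ C b (i, 0) := by
  induction j with
  | zero => simp
  | succ j ih =>
    refine le_trans ?_ ih
    have h := step hb i ((j : ℤ) + 1) (by omega)
    rw [add_sub_cancel_right] at h
    push_cast
    exact h

theorem C_abs {b : ℝ} (hb : 0 ≤ b) (x : ℤ × ℤ) :
    C b x = C b ((x.1.natAbs : ℤ), (x.2.natAbs : ℤ)) := by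
  have e1 : ∀ i j : ℤ, C b (i, j) = C b ((i.natAbs : ℤ), j) := by
    intro i j
    rcases Int.natAbs_eq i with h | h
    · rw [← h]
    · have h2 := C_refl1 hb (i, j)
      have h3 : XY.refl1 (i, j) = ((i.natAbs : ℤ), j) := by
        unfold XY.refl1
        refine Prod.ext ?_ rfl
        simp only
        omega
      rw [← h2, h3]
  have e2 := e1 x.1 x.2
  have e3 := C_swap hb ((x.1.natAbs : ℤ), x.2)
  rw [Prod.swap_prod_mk, e1 x.2] at e3
  have e4 := C_swap hb ((x.2.natAbs : ℤ), (x.1.natAbs : ℤ))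
  rw [Prod.swap_prod_mk] at e4
  calc C b x = C b (x.1, x.2) := rfl
    _ = C b ((x.1.natAbs : ℤ), x.2) := e2
    _ = C b ((x.2.natAbs : ℤ), (x.1.natAbs : ℤ)) := e3.symm
    _ = C b ((x.1.natAbs : ℤ), (x.2.natAbs : ℤ)) := e4.symm

/-- monotonicity of Messager and Miracle-Sole: the two-point function is at most its value on the
axis at the same sup distance -/
theorem mms {b : ℝ} (hb : 0 ≤ b) (x : ℤ × ℤ) : C b x ≤ C b ((nm x : ℤ), 0) := by
  rw [C_abs hb]
  unfold nm
  rcases le_total x.2.natAbs x.1.natAbs with h | h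
  · rw [max_eq_left h]
    exact C_le_axis hb _ _
  · rw [max_eq_right h]
    have e := C_swap hb ((x.1.natAbs : ℤ), (x.2.natAbs : ℤ))
    rw [Prod.swap_prod_mk] at e
    rw [← e]
    exact C_le_axis hb _ _

end Vale.Agent.P159.H556
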