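import Vale.Agent.P159.H170.Final
import Vale.Agent.P159.H399.Growth
import Vale.Agent.P159.H556.Mms

/-!
Pointwise lower bounds for the two-point function in the massless phase, from the monotonicity of
Messager and Miracle-Sole.
-/

open MeasureTheory Filter Topology
open scoped BigOperators

namespace Vale.Agent.P159.H556

open Vale.Agent.P159 Vale.Agent.P159.XY

/-- the boundary sum is at most the axis value times the number of bonds -/
theorem phi_le {b : ℝ} (hb : 0 < b) {n : ℕ} (hn : 1 ≤ n) :
    XY.phi b n ≤ 48 * b * n * C b ((n : ℤ), 0) := by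
  set a : ℝ := C b ((n : ℤ), 0) with ha
  have ha0 : 0 ≤ a := C_nonneg hb.le _
  have h1 : ∀ u ∈ box (n + 1), ∑ v ∈ box (n + 1), b * cross n u v * C b u
      ≤ if u ∈ box (n + 1) \ box (n - 1) then b * 2 * a else 0 := by
    intro u hu
    split_ifs with h2
    · have hnu : n ≤ nm u := by
        rw [Finset.mem_sdiff, mem_box_iff_nm, mem_box_iff_nm] at h2
        omega
      have hnu' : nm u ≤ n + 1 := mem_box_iff_nm.1 hu
      have hCu : C b u ≤ a := by
        refine (mms hb.le u).trans ?_
        rcases Nat.eq_or_lt_of_le hnu with h3 | h3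
        · rw [← h3]
        · have : nm u = n + 1 := by omega
          rw [this]
          exact axis_anti hb.le n
      have hA : ∑ v ∈ box (n + 1), A u v ≤ 2 := by
        have := sum_A_weight (n + 1) 0 ⟨u, hu⟩
        simp only [zero_mul, Real.exp_zero, mul_one, Real.cosh_zero] at this
        rw [Finset.sum_coe_sort (box (n + 1)) (fun v => A u v)] at this
        linarith only [this]
      calc ∑ v ∈ box (n + 1), b * cross n u v * C b u
          ≤ ∑ v ∈ box (n + 1), b * A u v * a := by
            refine Finset.sum_le_sum fun v _ => ?_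
            have hc : cross n u v ≤ A u v := by
              unfold cross; split_ifs
              · exact A_nonneg u v
              · exact le_rfl
            exact mul_le_mul (mul_le_mul_of_nonneg_left hc hb.le) hCu (C_nonneg hb.le _)
              (mul_nonneg hb.le (A_nonneg _ _))
        _ = b * (∑ v ∈ box (n + 1), A u v) * a := by
            rw [Finset.mul_sum, Finset.sum_mul]
        _ ≤ b * 2 * a :=
            mul_le_mul_of_nonneg_right (mul_le_mul_of_nonneg_left hA hb.le) ha0
    · refine le_of_eq (Finset.sum_eq_zero fun v _ => ?_)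
      have : cross n u v = 0 := by
        by_contra hne
        apply h2
        rw [Finset.mem_sdiff, mem_box_iff_nm, mem_box_iff_nm]
        have := cross_support hne
        omega
      rw [this]; ring
  have hcard : ((box (n + 1) \ box (n - 1)).card : ℝ) ≤ 24 * n := by
    have h3 : (box (n + 1) \ box (n - 1)).card = (2 * (n + 1) + 1) ^ 2 - (2 * (n - 1) + 1) ^ 2 := by
      rw [Finset.card_sdiff_of_subset (box_mono (by omega)), card_box, card_box]
    obtain ⟨m, rfl⟩ : ∃ m, n = m + 1 := ⟨n - 1, by omega⟩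
    have h4 : (2 * (m + 1 + 1) + 1) ^ 2 - (2 * (m + 1 - 1) + 1) ^ 2 ≤ 24 * (m + 1) := by
      rw [Nat.add_sub_cancel]
      apply Nat.sub_le_of_le_add
      nlinarith only []
    rw [h3]
    exact_mod_cast h4
  calc XY.phi b n ≤ ∑ u ∈ box (n + 1), (if u ∈ box (n + 1) \ box (n - 1)
          then b * 2 * a else 0) := Finset.sum_le_sum h1
    _ = ((box (n + 1) \ box (n - 1)).card : ℝ) * (b * 2 * a) := by
        rw [← Finset.sum_filter, Finset.sum_const, nsmul_eq_mul]
        congr 2
        congr 1
        ext u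
        simp only [Finset.mem_filter, Finset.mem_sdiff]
        (clear * -; tauto)
    _ ≤ (24 * n) * (b * 2 * a) :=
        mul_le_mul_of_nonneg_right hcard (by positivity)
    _ = 48 * b * n * a := by ring

/-- (R10) lower bound of order `1/n` in the massless phase -/
theorem axis_lower {b : ℝ} (hb : 0 < b) (hm : mass b = 0) {n : ℕ} (hn : 1 ≤ n) :
    1 / (48 * b * n) ≤ corrInf b ((n : ℤ), 0) := by
  have hn0 : (0 : ℝ) < n := by exact_mod_cast hn
  have h1 : 1 ≤ XY.phi b n := by
    by_contra h
    push Not at h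
    have := mass_pos_of_phi hb h
    linarith
  have h2 := phi_le hb hn
  rw [corrInf_eq hb.le, div_le_iff₀ (by positivity)]
  linarith

/-- (R11) above the critical point the exponent is below one -/
theorem axis_lower_above {b : ℝ} (hb : bCrit < b) :
    ∃ c : ℝ, 0 < c ∧ ∀ n : ℕ, 1 ≤ n →
      c * (n : ℝ) ^ (-1 + (1 / bCrit - 1 / b) / 8) ≤ corrInf b ((n : ℤ), 0) := by
  have hc := H170.bCrit_pos
  have hb0 : 0 < b := hc.trans hb
  have hmass := H170.mass_bCrit'
  set δ : ℝ := (1 / bCrit - 1 / b) / 8 with hδ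
  have hδ0 : 0 ≤ δ := by
    have : 1 / b ≤ 1 / bCrit := one_div_le_one_div_of_le hc hb.le
    rw [hδ]; linarith
  set q : ℝ := 8 * bCrit / (8 * bCrit + 1) with hq
  have hq0 : 0 < q := by positivity
  refine ⟨1 / (48 * bCrit) * q ^ δ, by positivity, fun n hn => ?_⟩
  have hn0 : (0 : ℝ) < n := by exact_mod_cast hn
  have hx : (((n : ℤ), 0) : ℤ × ℤ) ≠ 0 := by
    intro h
    have := congrArg Prod.fst h
    simp only [Prod.fst_zero, Nat.cast_eq_zero] at this
    omega
  have h1 := H399.growth bCrit b hc hb.le ((n : ℤ), 0) hx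
  have h2 := axis_lower hc hmass hn
  have hmax : ((max |((n : ℤ), (0 : ℤ)).1| |((n : ℤ), (0 : ℤ)).2| : ℤ) : ℝ) = n := by
    simp
  rw [hmax] at h1
  refine le_trans ?_ h1
  have h3 : q * n ≤ (8 * bCrit * n + 1) / (8 * bCrit + 1) := by
    rw [hq, le_div_iff₀ (by positivity)]
    have : 8 * bCrit / (8 * bCrit + 1) * n * (8 * bCrit + 1) = 8 * bCrit * n := by
      field_simp
    linarith
  have h4 : (q * n) ^ δ ≤ ((8 * bCrit * n + 1) / (8 * bCrit + 1)) ^ δ :=
    Real.rpow_le_rpow (by positivity) h3 hδ0
  have h5 : 1 / (48 * bCrit * n) * (q * n) ^ δ ≤ corrInf bCrit ((n : ℤ), 0) *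
      ((8 * bCrit * n + 1) / (8 * bCrit + 1)) ^ δ :=
    mul_le_mul h2 h4 (by positivity) ((by positivity : (0 : ℝ) ≤ 1 / (48 * bCrit * n)).trans h2)
  refine le_trans (le_of_eq ?_) h5
  rw [Real.mul_rpow hq0.le hn0.le, Real.rpow_add hn0, Real.rpow_neg_one]
  field_simp

end Vale.Agent.P159.H556
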