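import Vale.Agent.P159.H170.Final
import Vale.Agent.P159.H950.F7

/-!
Rows for the lower bounds of the correlation length by the charge two magnetization, and for the
growth of the correlations with the inverse temperature.
-/

open MeasureTheory Filter Topology
open scoped BigOperators

namespace Vale.Agent.P159.H556

open Vale.Agent.P159

/-- the boundary profile `x` -/
def gx : ℝ → ℝ → ℝ := fun x _ => x

/-- charge two expectation in the wired block `[0,N]²` -/
noncomputable def D2 (N : ℕ) (b : ℝ) (u v : ℤ × ℤ) : ℝ :=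
  expect (blockEnergy N b) fun θ => cosT (ext θ u + ext θ v)

/-- free energy of the twist -/
noncomputable def FF (N : ℕ) (b : ℝ) : ℝ := Real.log (bdryZ N b 0) - Real.log (bdryZ N b gx)

/-- (R2) the derivative of the free energy of the twist in `b` is bounded by the charge two
expectations -/
def R2 : Prop := ∀ (N : ℕ) (b₁ b₂ : ℝ), 1 ≤ N → 0 < b₁ → b₁ ≤ b₂ →
  FF N b₂ - FF N b₁ ≤ (b₂ - b₁) * ∑ e : BI N,
    if bu e ∈ inner N ∧ bv e ∈ inner N then 1 / 2 * D2 N b₂ (bu e) (bv e) else 1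

/-- (R3) decay of the charge two expectation of a bond -/
def R3 : Prop := ∀ (b κ : ℝ), 0 < b → 0 ≤ κ → κ * (4 * Real.pi * helicity b) < 1 →
  ∃ K : ℝ, 0 ≤ K ∧ ∀ (N : ℕ) (e : BI N) (d : ℕ), 1 ≤ d →
    (∀ w : ℤ × ℤ, |w.1 - (bu e).1| ≤ d → |w.2 - (bu e).2| ≤ d → w ∈ inner N) →
    D2 N b (bu e) (bv e) ≤ K * (d : ℝ) ^ (-(4 * κ))

/-- (R4) the stiffness of blocks larger than the correlation length -/
def R4 : Prop := ∀ B : ℝ, 0 < B → ∃ C : ℝ, 0 ≤ C ∧ ∀ b : ℝ, 0 < b → b ≤ B → 0 < mass b →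
  ∀ l R : ℕ, 1 ≤ R → R ≤ l →
    stiff l b ≤ C * ((R : ℝ) / l + (l : ℝ) ^ 3 * Real.exp (-(mass b * R)))

/-- (R5) lower bound of the twisted partition function by the stiffness -/
def R5 : Prop := ∀ (N : ℕ) (b : ℝ), 1 ≤ N → 0 ≤ b → FF N b ≤ stiff N b / 2

/-- (R6) the lower bound of the correlation length -/
def R6 : Prop := ∀ ν : ℝ, ν < 1 / (2 - 1 / (Real.pi * helicity bCrit)) →
  ∃ c δ : ℝ, 0 < c ∧ 0 < δ ∧ ∀ b : ℝ, bCrit - δ < b → b < bCrit →
    c * (bCrit - b) ^ (-ν) ≤ corrLength b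

/-- (R8) growth of the correlations with the inverse temperature -/
def R8 : Prop := ∀ b b' : ℝ, 0 < b → b ≤ b' → ∀ x : ℤ × ℤ, x ≠ 0 →
  corrInf b x * ((8 * b * ((max |x.1| |x.2| : ℤ) : ℝ) + 1) / (8 * b + 1)) ^
    ((1 / b - 1 / b') / 8) ≤ corrInf b' x

section Fields

variable {V : Type*} [Fintype V]

/-- unnormalized expectation with fields coupled to the cosines and the sines -/
noncomputable def unG (J : V → V → ℝ) (hc hs : V → ℝ) (f : (V → T) → ℝ) : ℝ :=
  ∫ θ, f θ * Real.exp (XY.energy J θ + ∑ x, (hc x * XY.ct (θ x) + hs x * XY.st (θ x)))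
    ∂XY.haarV V

end Fields

end Vale.Agent.P159.H556
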