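import Vale.Agent.P159.H556.TwistR5

/-!
Summation of the charge two expectations over the bonds of the block.
-/

open MeasureTheory Filter Topology
open scoped BigOperators

set_option linter.unusedSectionVars false

namespace Vale.Agent.P159.H556

open Vale.Agent.P159

/-- sum of powers -/
theorem sum_rpow_le {s : ℝ} (hs0 : 0 ≤ s) (hs1 : s < 1) (n : ℕ) :
    ∑ k ∈ Finset.range n, ((k : ℝ) + 1) ^ (-s) ≤ (n : ℝ) ^ (1 - s) / (1 - s) := by
  have h1s : 0 < 1 - s := by linarith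
  induction n with
  | zero =>
    simp [Real.zero_rpow h1s.ne']
  | succ n ih =>
    rw [Finset.sum_range_succ]
    push_cast
    have key : ((n : ℝ) + 1) ^ (-s) ≤ (((n : ℝ) + 1) ^ (1 - s) - (n : ℝ) ^ (1 - s)) / (1 - s) := by
      rw [le_div_iff₀ h1s]
      have hn : (0 : ℝ) < (n : ℝ) + 1 := by positivity
      have e1 : ((n : ℝ) + 1) ^ (1 - s) = ((n : ℝ) + 1) ^ (-s) * ((n : ℝ) + 1) := by
        rw [show 1 - s = -s + 1 by ring, Real.rpow_add_one hn.ne']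
      have e2 : (n : ℝ) ^ (1 - s) ≤ ((n : ℝ) + 1) ^ (-s) * ((n : ℝ) + s) := by
        rcases Nat.eq_zero_or_pos n with h0 | h0
        · rw [h0]
          simp only [Nat.cast_zero, zero_add, Real.one_rpow, one_mul]
          rw [Real.zero_rpow h1s.ne']
          exact hs0
        · have hn0 : (0 : ℝ) < n := by exact_mod_cast h0
          have h3 : (n : ℝ) ^ (1 - s) = ((n : ℝ) + 1) ^ (-s) * ((((n : ℝ) + 1) / n) ^ s * n) := by
            rw [Real.div_rpow hn.le hn0.le, Real.rpow_neg hn.le,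
              show 1 - s = -s + 1 by ring, Real.rpow_add_one hn0.ne', Real.rpow_neg hn0.le]
            have : ((n : ℝ) + 1) ^ s ≠ 0 := (Real.rpow_pos_of_pos hn s).ne'
            field_simp
          rw [h3]
          refine mul_le_mul_of_nonneg_left ?_ (Real.rpow_nonneg hn.le _)
          have h4 : (((n : ℝ) + 1) / n) ^ s ≤ 1 + s * (((n : ℝ) + 1) / n - 1) := by
            have h5 := rpow_one_add_le_one_add_mul_self (s := ((n : ℝ) + 1) / n - 1) (p := s)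
              (by
                have : (0 : ℝ) ≤ ((n : ℝ) + 1) / n := by positivity
                linarith) hs0 hs1.le
            rwa [add_sub_cancel] at h5
          have h6 : ((n : ℝ) + 1) / n - 1 = 1 / n := by field_simp; ring
          rw [h6] at h4
          calc (((n : ℝ) + 1) / n) ^ s * n ≤ (1 + s * (1 / n)) * n :=
                mul_le_mul_of_nonneg_right h4 hn0.le
            _ = n + s := by field_simp
      nlinarith [Real.rpow_nonneg hn.le (-s)]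
    have : (((n : ℝ) + 1) ^ (1 - s)) / (1 - s) = (n : ℝ) ^ (1 - s) / (1 - s) +
        (((n : ℝ) + 1) ^ (1 - s) - (n : ℝ) ^ (1 - s)) / (1 - s) := by ring
    rw [this]
    linarith

/-- distance weight of a site of the block -/
noncomputable def W (s : ℝ) (l : ℕ) (v : ℤ × ℤ) : ℝ :=
  if v ∈ inner l then ((v.1 : ℝ)) ^ (-s) + ((l : ℝ) - v.1) ^ (-s) +
    (((v.2 : ℝ)) ^ (-s) + ((l : ℝ) - v.2) ^ (-s)) else 0

theorem W_nonneg (s : ℝ) (l : ℕ) (v : ℤ × ℤ) : 0 ≤ W s l v := by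
  unfold W
  split_ifs with h
  · obtain ⟨⟨h1, h2⟩, h3, h4⟩ := mem_inner.1 h
    have r1 : (1 : ℝ) ≤ v.1 := by exact_mod_cast h1
    have r2 : (1 : ℝ) ≤ v.2 := by exact_mod_cast h2
    have r3 : (v.1 : ℝ) ≤ (l : ℝ) - 1 := by exact_mod_cast h3
    have r4 : (v.2 : ℝ) ≤ (l : ℝ) - 1 := by exact_mod_cast h4
    have := Real.rpow_nonneg (show (0 : ℝ) ≤ v.1 by linarith) (-s)
    have := Real.rpow_nonneg (show (0 : ℝ) ≤ (l : ℝ) - v.1 by linarith) (-s)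
    have := Real.rpow_nonneg (show (0 : ℝ) ≤ v.2 by linarith) (-s)
    have := Real.rpow_nonneg (show (0 : ℝ) ≤ (l : ℝ) - v.2 by linarith) (-s)
    linarith
  · exact le_refl _

theorem W_summable (s : ℝ) (l : ℕ) : Summable (W s l) :=
  summable_of_ne_finset_zero (s := inner l) fun v hv => by unfold W; rw [if_neg hv]

theorem sum_Icc_pow {s : ℝ} (hs0 : 0 ≤ s) (hs1 : s < 1) (l : ℕ) :
    ∑ i ∈ Finset.Icc (1 : ℤ) ((l : ℤ) - 1), ((i : ℝ)) ^ (-s) ≤ (l : ℝ) ^ (1 - s) / (1 - s) ∧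
    ∑ i ∈ Finset.Icc (1 : ℤ) ((l : ℤ) - 1), ((l : ℝ) - i) ^ (-s) ≤ (l : ℝ) ^ (1 - s) / (1 - s) := by
  have h1 : ∑ i ∈ Finset.Icc (1 : ℤ) ((l : ℤ) - 1), ((i : ℝ)) ^ (-s) ≤
      ∑ k ∈ Finset.range l, ((k : ℝ) + 1) ^ (-s) := by
    have e : ∑ k ∈ Finset.range l, ((k : ℝ) + 1) ^ (-s) =
        ∑ i ∈ (Finset.range l).image (fun k : ℕ => (k : ℤ) + 1), ((i : ℝ)) ^ (-s) := by
      rw [Finset.sum_image]
      · refine Finset.sum_congr rfl fun k _ => ?_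
        push_cast
        rfl
      · intro a _ b _ hab
        have : (a : ℤ) + 1 = (b : ℤ) + 1 := hab
        omega
    rw [e]
    refine Finset.sum_le_sum_of_subset_of_nonneg ?_ ?_
    · intro i hi
      rw [Finset.mem_Icc] at hi
      rw [Finset.mem_image]
      refine ⟨(i - 1).toNat, ?_, ?_⟩
      · rw [Finset.mem_range]; omega
      · have := Int.toNat_of_nonneg (show 0 ≤ i - 1 by omega)
        omega
    · intro i hi _
      rw [Finset.mem_image] at hi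
      obtain ⟨k, _, rfl⟩ := hi
      exact Real.rpow_nonneg (by push_cast; positivity) _
  have h2 : ∑ i ∈ Finset.Icc (1 : ℤ) ((l : ℤ) - 1), ((l : ℝ) - i) ^ (-s) =
      ∑ i ∈ Finset.Icc (1 : ℤ) ((l : ℤ) - 1), ((i : ℝ)) ^ (-s) := by
    refine Finset.sum_bij' (fun i _ => (l : ℤ) - i) (fun i _ => (l : ℤ) - i) ?_ ?_ ?_ ?_ ?_
    · intro i hi; rw [Finset.mem_Icc] at hi ⊢; omega
    · intro i hi; rw [Finset.mem_Icc] at hi ⊢; omega
    · intro i hi; ring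
    · intro i hi; ring
    · intro i hi; push_cast; rfl
  have h3 := h1.trans (sum_rpow_le hs0 hs1 l)
  exact ⟨h3, h2.trans_le h3⟩

theorem sum_W {s : ℝ} (hs0 : 0 ≤ s) (hs1 : s < 1) (l : ℕ) :
    ∑' v, W s l v ≤ 4 / (1 - s) * (l : ℝ) ^ (2 - s) := by
  have h1s : 0 < 1 - s := by linarith
  rcases Nat.eq_zero_or_pos l with h0 | hl
  · have : ∀ v, W s l v = 0 := by
      intro v
      unfold W
      rw [if_neg]
      intro h
      obtain ⟨⟨h1, h2⟩, h3, h4⟩ := mem_inner.1 h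
      omega
    simp only [this, tsum_zero]
    positivity
  have hl0 : (0 : ℝ) < l := by exact_mod_cast hl
  rw [tsum_eq_sum (s := inner l) (fun v hv => by unfold W; rw [if_neg hv])]
  have e1 : inner l = Finset.Icc (1 : ℤ) ((l : ℤ) - 1) ×ˢ Finset.Icc (1 : ℤ) ((l : ℤ) - 1) := rfl
  have e2 : ∑ v ∈ inner l, W s l v = ∑ v ∈ inner l, (((v.1 : ℝ)) ^ (-s) + ((l : ℝ) - v.1) ^ (-s) +
    (((v.2 : ℝ)) ^ (-s) + ((l : ℝ) - v.2) ^ (-s))) :=
    Finset.sum_congr rfl fun v hv => by unfold W; rw [if_pos hv]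
  obtain ⟨a1, a2⟩ := sum_Icc_pow hs0 hs1 l
  set I := Finset.Icc (1 : ℤ) ((l : ℤ) - 1) with hI
  have hcard : (I.card : ℝ) ≤ l := by
    have : I.card ≤ l := by rw [hI, Int.card_Icc]; omega
    exact_mod_cast this
  have hA : 0 ≤ (l : ℝ) ^ (1 - s) / (1 - s) := by positivity
  rw [e2, e1, Finset.sum_product, ]
  have e3 : ∀ i ∈ I, ∑ j ∈ I, (((i : ℝ)) ^ (-s) + ((l : ℝ) - i) ^ (-s) +
      (((j : ℝ)) ^ (-s) + ((l : ℝ) - j) ^ (-s))) ≤
      (l : ℝ) * (((i : ℝ)) ^ (-s) + ((l : ℝ) - i) ^ (-s)) +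
        2 * ((l : ℝ) ^ (1 - s) / (1 - s)) := by
    intro i hi
    rw [Finset.sum_add_distrib, Finset.sum_const, nsmul_eq_mul, Finset.sum_add_distrib]
    rw [hI, Finset.mem_Icc] at hi
    have r1 : (1 : ℝ) ≤ i := by exact_mod_cast hi.1
    have r3 : (i : ℝ) ≤ (l : ℝ) - 1 := by exact_mod_cast hi.2
    have p1 := Real.rpow_nonneg (show (0 : ℝ) ≤ i by linarith) (-s)
    have p2 := Real.rpow_nonneg (show (0 : ℝ) ≤ (l : ℝ) - i by linarith) (-s)
    have := mul_le_mul_of_nonneg_right hcard (add_nonneg p1 p2)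
    linarith
  refine (Finset.sum_le_sum e3).trans ?_
  rw [Finset.sum_add_distrib, ← Finset.mul_sum, Finset.sum_add_distrib, Finset.sum_const,
    nsmul_eq_mul]
  have e4 : (l : ℝ) ^ (2 - s) = l * (l : ℝ) ^ (1 - s) := by
    rw [show 2 - s = 1 + (1 - s) by ring, Real.rpow_add hl0, Real.rpow_one]
  rw [e4]
  have h5 := mul_le_mul_of_nonneg_left (add_le_add a1 a2) hl0.le
  have h6 := mul_le_mul_of_nonneg_right hcard (mul_nonneg zero_le_two hA)
  have e5 : 4 / (1 - s) * ((l : ℝ) * (l : ℝ) ^ (1 - s)) =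
      4 * (l * ((l : ℝ) ^ (1 - s) / (1 - s))) := by ring
  rw [e5]
  linarith

theorem sum_bu_W (s : ℝ) (l : ℕ) : ∑ e : BI l, W s l (bu e) ≤ 4 * ∑' v, W s l v :=
  sum_flags_le (W_nonneg s l) (W_summable s l) (fun e => bu e) (by
    rintro ⟨o, t⟩ ⟨i, j⟩ ⟨i', j'⟩ h
    unfold bu at h
    simp only [Prod.mk.injEq] at h
    obtain ⟨h1, h2⟩ := h
    have hi : i = i' := Fin.ext (by omega)
    have hj : j = j' := Fin.ext (by omega)
    rw [hi, hj])

theorem D2_le_one (N : ℕ) (b : ℝ) (u v : ℤ × ℤ) : D2 N b u v ≤ 1 := by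
  rw [D2_gibbs, ← gibbs_const muInf (fun _ => b / 2) (chi0 N) 1]
  exact gibbs_mono _ _ _ (Chr.cont_c _) continuous_const fun x =>
    (le_abs_self _).trans (Chr.abs_c_le _ x)

/-- the charge two expectation in terms of the weight -/
theorem D2_W {b κ K : ℝ} (hκ : 0 ≤ κ) (hK : 0 ≤ K)
    (h : ∀ (N : ℕ) (e : BI N) (d : ℕ), 1 ≤ d →
      (∀ w : ℤ × ℤ, |w.1 - (bu e).1| ≤ d → |w.2 - (bu e).2| ≤ d → w ∈ inner N) →
      D2 N b (bu e) (bv e) ≤ K * (d : ℝ) ^ (-(4 * κ)))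
    (l : ℕ) (e : BI l) (hu : bu e ∈ inner l) :
    D2 l b (bu e) (bv e) ≤ (K * 2 ^ (4 * κ) + 1) * W (4 * κ) l (bu e) := by
  set v := bu e with hv
  have hs : 0 ≤ 4 * κ := by linarith
  obtain ⟨⟨h1, h2⟩, h3, h4⟩ := mem_inner.1 hu
  have hWn := W_nonneg (4 * κ) l v
  -- the distance
  obtain ⟨ρ, hρ⟩ : ∃ ρ : ℤ, ρ = min (min v.1 ((l : ℤ) - v.1)) (min v.2 ((l : ℤ) - v.2)) := ⟨_, rfl⟩
  have hρ1 : 1 ≤ ρ := by rw [hρ]; omega
  have hρ0 : (0 : ℝ) < ρ := by exact_mod_cast (show (0 : ℤ) < ρ by omega)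
  have hWρ : (ρ : ℝ) ^ (-(4 * κ)) ≤ W (4 * κ) l v := by
    unfold W
    rw [if_pos hu]
    have r1 : (1 : ℝ) ≤ v.1 := by exact_mod_cast h1
    have r2 : (1 : ℝ) ≤ v.2 := by exact_mod_cast h2
    have r3 : (v.1 : ℝ) ≤ (l : ℝ) - 1 := by exact_mod_cast h3
    have r4 : (v.2 : ℝ) ≤ (l : ℝ) - 1 := by exact_mod_cast h4
    have q1 := Real.rpow_nonneg (show (0 : ℝ) ≤ v.1 by linarith) (-(4 * κ))
    have q2 := Real.rpow_nonneg (show (0 : ℝ) ≤ (l : ℝ) - v.1 by linarith) (-(4 * κ))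
    have q3 := Real.rpow_nonneg (show (0 : ℝ) ≤ v.2 by linarith) (-(4 * κ))
    have q4 := Real.rpow_nonneg (show (0 : ℝ) ≤ (l : ℝ) - v.2 by linarith) (-(4 * κ))
    have hc : ρ = v.1 ∨ ρ = (l : ℤ) - v.1 ∨ ρ = v.2 ∨ ρ = (l : ℤ) - v.2 := by rw [hρ]; omega
    rcases hc with hc | hc | hc | hc
    · rw [hc]; linarith
    · rw [hc]; push_cast; linarith
    · rw [hc]; linarith
    · rw [hc]; push_cast; linarith
  have hc0 : 0 ≤ K * 2 ^ (4 * κ) := by positivity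
  rcases eq_or_lt_of_le hρ1 with h5 | h5
  · have h6 : (ρ : ℝ) ^ (-(4 * κ)) = 1 := by rw [← h5]; simp
    have h7 := D2_le_one l b (bu e) (bv e)
    rw [h6] at hWρ
    rw [← hv] at h7
    nlinarith
  · have hd1 : 1 ≤ (ρ - 1).toNat := by omega
    have hd2 : (((ρ - 1).toNat : ℕ) : ℤ) = ρ - 1 := Int.toNat_of_nonneg (by omega)
    have h8 := h l e (ρ - 1).toNat hd1 (by
      intro w hw1 hw2
      rw [hd2, abs_le] at hw1 hw2
      rw [← hv] at hw1 hw2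
      rw [mem_inner]
      refine ⟨⟨?_, ?_⟩, ?_, ?_⟩ <;> omega)
    rw [← hv] at h8
    have hd3 : (((ρ - 1).toNat : ℕ) : ℝ) = (ρ : ℝ) - 1 := by
      have : (((ρ - 1).toNat : ℕ) : ℝ) = (((ρ - 1 : ℤ)) : ℝ) := by
        rw [← hd2]; push_cast; rfl
      rw [this]; push_cast; ring
    rw [hd3] at h8
    have hρ2 : (2 : ℝ) ≤ ρ := by exact_mod_cast (show (2 : ℤ) ≤ ρ by omega)
    have h9 : ((ρ : ℝ) - 1) ^ (-(4 * κ)) ≤ 2 ^ (4 * κ) * (ρ : ℝ) ^ (-(4 * κ)) := by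
      have h10 : ((ρ : ℝ) - 1) ^ (-(4 * κ)) ≤ ((ρ : ℝ) / 2) ^ (-(4 * κ)) :=
        Real.rpow_le_rpow_of_nonpos (by positivity) (by linarith) (by linarith)
      have h11 : ((ρ : ℝ) / 2) ^ (-(4 * κ)) = 2 ^ (4 * κ) * (ρ : ℝ) ^ (-(4 * κ)) := by
        rw [Real.div_rpow hρ0.le (by norm_num), Real.rpow_neg (by norm_num : (0 : ℝ) ≤ 2)]
        field_simp
      rwa [h11] at h10
    calc D2 l b v (bv e) ≤ K * ((ρ : ℝ) - 1) ^ (-(4 * κ)) := h8
      _ ≤ K * (2 ^ (4 * κ) * (ρ : ℝ) ^ (-(4 * κ))) := mul_le_mul_of_nonneg_left h9 hK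
      _ = K * 2 ^ (4 * κ) * (ρ : ℝ) ^ (-(4 * κ)) := by ring
      _ ≤ K * 2 ^ (4 * κ) * W (4 * κ) l v := mul_le_mul_of_nonneg_left hWρ hc0
      _ ≤ (K * 2 ^ (4 * κ) + 1) * W (4 * κ) l v := by linarith

/-- the sum in (R2) is at most a power of the side -/
theorem sum_bound {b κ : ℝ} (hb : 0 < b) (hκ : 0 ≤ κ) (hκ1 : 4 * κ < 1)
    (hκY : κ * (4 * Real.pi * helicity b) < 1) (r3 : R3) :
    ∃ C : ℝ, 0 < C ∧ ∀ l : ℕ, 1 ≤ l → (∑ e : BI l,
      if bu e ∈ inner l ∧ bv e ∈ inner l then 1 / 2 * D2 l b (bu e) (bv e) else 1) ≤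
        C * (l : ℝ) ^ (2 - 4 * κ) := by
  obtain ⟨K, hK, h⟩ := r3 b κ hb hκ hκY
  set c : ℝ := K * 2 ^ (4 * κ) + 1 with hc
  have hc0 : 0 < c := by positivity
  have h1s : 0 < 1 - 4 * κ := by linarith
  refine ⟨c * (4 * (4 / (1 - 4 * κ))) + 16, by positivity, fun l hl => ?_⟩
  have hl0 : (0 : ℝ) < l := by exact_mod_cast hl
  have hl1 : (1 : ℝ) ≤ l := by exact_mod_cast hl
  have hterm : ∀ e : BI l, (if bu e ∈ inner l ∧ bv e ∈ inner l then
      1 / 2 * D2 l b (bu e) (bv e) else 1) ≤ c * W (4 * κ) l (bu e) + bcell l e := by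
    intro e
    have q1 := bcell_nonneg l e
    have q2 := W_nonneg (4 * κ) l (bu e)
    split_ifs with he
    · have := D2_W hκ hK h l e he.1
      have h3 : 0 ≤ c * W (4 * κ) l (bu e) := by positivity
      linarith
    · have : 1 ≤ bcell l e := one_le_bcell (by tauto)
      have h3 : 0 ≤ c * W (4 * κ) l (bu e) := by positivity
      linarith
  refine (Finset.sum_le_sum fun e _ => hterm e).trans ?_
  rw [Finset.sum_add_distrib, ← Finset.mul_sum]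
  have s1 := (sum_bu_W (4 * κ) l).trans
    (mul_le_mul_of_nonneg_left (sum_W (by linarith) hκ1 l) (by norm_num : (0 : ℝ) ≤ 4))
  have s2 := mul_le_mul_of_nonneg_left s1 hc0.le
  have s3 := sum_bcell l
  have s4 : (l : ℝ) ≤ (l : ℝ) ^ (2 - 4 * κ) := by
    nth_rewrite 1 [← Real.rpow_one (l : ℝ)]
    exact Real.rpow_le_rpow_of_exponent_le hl1 (by linarith)
  have e1 : c * (4 * (4 / (1 - 4 * κ) * (l : ℝ) ^ (2 - 4 * κ))) =
      c * (4 * (4 / (1 - 4 * κ))) * (l : ℝ) ^ (2 - 4 * κ) := by ring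
  rw [e1] at s2
  rw [add_mul]
  linarith

end Vale.Agent.P159.H556
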