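import Vale.Agent.P159.H556.Deriv

/-!
The derivative of the free energy of the twist is bounded by charge two expectations.
-/

open MeasureTheory Filter Topology
open scoped BigOperators

set_option linter.unusedSectionVars false

namespace Vale.Agent.P159.H556

open Vale.Agent.P159

/-- normalized expectation of the spin system with fields -/
noncomputable def nG {V : Type*} [Fintype V] (J : V → V → ℝ) (hc hs : V → ℝ)
    (f : (V → T) → ℝ) : ℝ := unG J hc hs f / unG J hc hs (fun _ => 1)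

theorem EG_eq (N : ℕ) (b : ℝ) (g : ℝ → ℝ → ℝ) (f : (inner N → T) → ℝ) :
    EG N b g f = nG (mJ N b) (cG N b g) (sG N b g) f := by
  unfold EG nG unG
  rw [bdryZ_int]
  have e1 : ∀ θ : inner N → T, Real.exp (b * eG N g θ) =
      Real.exp (XY.energy (mJ N b) θ + ∑ x, (cG N b g x * XY.ct (θ x) +
        sG N b g x * XY.st (θ x))) * Real.exp (kG N b g) := by
    intro θ
    rw [← eG_mul, bdry_field, Real.exp_add]
  simp_rw [e1]
  have e2 : ∀ θ : inner N → T, f θ *
      (Real.exp (XY.energy (mJ N b) θ + ∑ x, (cG N b g x * XY.ct (θ x) +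
        sG N b g x * XY.st (θ x))) * Real.exp (kG N b g)) =
      (f θ * Real.exp (XY.energy (mJ N b) θ + ∑ x, (cG N b g x * XY.ct (θ x) +
        sG N b g x * XY.st (θ x)))) * Real.exp (kG N b g) := fun θ => by ring
  simp_rw [e2]
  rw [integral_mul_const, integral_mul_const, mul_div_mul_right _ _ (Real.exp_pos _).ne']
  simp only [one_mul]
  rfl

theorem extBy_zero (N : ℕ) (θ : inner N → T) : extBy N 0 θ = ext θ := by
  funext v
  unfold extBy ext
  split_ifs with h
  · rfl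
  · simp

theorem cG_zero (N : ℕ) (b : ℝ) : cG N b 0 = mh N b := by
  funext x
  unfold cG mh bang
  simp

theorem sG_zero (N : ℕ) (b : ℝ) : sG N b 0 = 0 := by
  funext x
  unfold sG bang
  simp

theorem nG_add {V : Type*} [Fintype V] (J : V → V → ℝ) (hc hs : V → ℝ) {f g : (V → T) → ℝ}
    (hf : Continuous f) (hg : Continuous g) :
    nG J hc hs (fun θ => f θ + g θ) = nG J hc hs f + nG J hc hs g := by
  have hG' := Real.continuous_exp.comp (hG_cont J hc hs)
  unfold nG unG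
  rw [← add_div]
  congr 1
  simp_rw [add_mul]
  exact integral_add (cint (hf.mul hG')) (cint (hg.mul hG'))

theorem nG_sub {V : Type*} [Fintype V] (J : V → V → ℝ) (hc hs : V → ℝ) {f g : (V → T) → ℝ}
    (hf : Continuous f) (hg : Continuous g) :
    nG J hc hs (fun θ => f θ - g θ) = nG J hc hs f - nG J hc hs g := by
  have hG' := Real.continuous_exp.comp (hG_cont J hc hs)
  unfold nG unG
  rw [← sub_div]
  congr 1
  simp_rw [sub_mul]
  exact integral_sub (cint (hf.mul hG')) (cint (hg.mul hG'))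

/-- cosine and sine parts of the bond energy -/
theorem EG_split (N : ℕ) (b : ℝ) (g : ℝ → ℝ → ℝ) {e : BI N} (hu : bu e ∈ inner N)
    (hv : bv e ∈ inner N) :
    EG N b g (fun θ => cosT (extBy N g θ (bu e) - extBy N g θ (bv e))) =
      nG (mJ N b) (cG N b g) (sG N b g)
        (fun θ => XY.ct (θ ⟨bu e, hu⟩) * XY.ct (θ ⟨bv e, hv⟩)) +
      nG (mJ N b) (cG N b g) (sG N b g)
        (fun θ => XY.st (θ ⟨bu e, hu⟩) * XY.st (θ ⟨bv e, hv⟩)) := by
  rw [EG_eq, ← nG_add _ _ _ (by fun_prop) (by fun_prop)]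
  congr 1
  funext θ
  rw [extBy_mem hu, extBy_mem hv]
  exact XY.ct_sub _ _

/-- charge two expectation as a difference -/
theorem D2_split (N : ℕ) (b : ℝ) {e : BI N} (hu : bu e ∈ inner N) (hv : bv e ∈ inner N) :
    D2 N b (bu e) (bv e) =
      nG (mJ N b) (mh N b) 0 (fun θ => XY.ct (θ ⟨bu e, hu⟩) * XY.ct (θ ⟨bv e, hv⟩)) -
      nG (mJ N b) (mh N b) 0 (fun θ => XY.st (θ ⟨bu e, hu⟩) * XY.st (θ ⟨bv e, hv⟩)) := by
  have h1 : D2 N b (bu e) (bv e) = EG N b 0 (fun θ => cosT (ext θ (bu e) + ext θ (bv e))) := by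
    unfold D2 expect EG
    rw [bdryZ_int]
    have e1 : ∀ θ : inner N → T, b * eG N 0 θ = blockEnergy N b θ := by
      intro θ
      rw [← eG_mul, extBy_zero]
      rfl
    simp_rw [e1]
  rw [h1, EG_eq, cG_zero, sG_zero, ← nG_sub _ _ _ (by fun_prop) (by fun_prop)]
  congr 1
  funext θ
  rw [ext_mem hu, ext_mem hv]
  exact XY.ct_add _ _

theorem gx_bang {N : ℕ} (hN : 1 ≤ N) (e : BI N) :
    (0 ≤ bang N gx (bu e) ∧ bang N gx (bu e) ≤ 1) ∧
      (0 ≤ bang N gx (bv e) ∧ bang N gx (bv e) ≤ 1) := by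
  have hN0 : (0 : ℝ) < N := by exact_mod_cast hN
  obtain ⟨a1, a2, a3, a4⟩ := bu_range e
  obtain ⟨b1, b2, b3, b4⟩ := bv_range e
  have h : ∀ k : ℤ, 0 ≤ k → k ≤ N → 0 ≤ (k : ℝ) / N ∧ (k : ℝ) / N ≤ 1 := by
    intro k h1 h2
    have h3 : (0 : ℝ) ≤ k := by exact_mod_cast h1
    have h4 : (k : ℝ) ≤ N := by exact_mod_cast h2
    exact ⟨by positivity, (div_le_one hN0).2 h4⟩
  exact ⟨h _ a1 a2, h _ b1 b2⟩

theorem trig_nonneg {t : ℝ} (h0 : 0 ≤ t) (h1 : t ≤ 1) : 0 ≤ Real.cos t ∧ 0 ≤ Real.sin t := by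
  have := Real.pi_gt_three
  exact ⟨Real.cos_nonneg_of_neg_pi_div_two_le_of_le (by linarith) (by linarith),
    Real.sin_nonneg_of_nonneg_of_le_pi h0 (by linarith)⟩

/-- the energy of a bond changes at most by the charge two expectation -/
theorem energy_diff {N : ℕ} (hN : 1 ≤ N) {b : ℝ} (hb : 0 ≤ b) {e : BI N} (hu : bu e ∈ inner N)
    (hv : bv e ∈ inner N) :
    EG N b 0 (fun θ => cosT (extBy N 0 θ (bu e) - extBy N 0 θ (bv e))) -
      EG N b gx (fun θ => cosT (extBy N gx θ (bu e) - extBy N gx θ (bv e))) ≤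
      D2 N b (bu e) (bv e) := by
  have ht : ∀ e : BI N, (0 ≤ Real.cos (bang N gx (bu e)) ∧ 0 ≤ Real.cos (bang N gx (bv e))) ∧
      (0 ≤ Real.sin (bang N gx (bu e)) ∧ 0 ≤ Real.sin (bang N gx (bv e))) := by
    intro e
    obtain ⟨⟨a1, a2⟩, b1, b2⟩ := gx_bang hN e
    exact ⟨⟨(trig_nonneg a1 a2).1, (trig_nonneg b1 b2).1⟩,
      (trig_nonneg a1 a2).2, (trig_nonneg b1 b2).2⟩
  have hcorr := corr_ge (mJ N b) (mJ_nonneg N hb) (hc := cG N b gx) (hs := sG N b gx)
    (h := mh N b) (cG_nonneg hb fun e => (ht e).1) (cG_le hb gx)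
    (sG_nonneg hb fun e => (ht e).2) (sG_le hb gx) ⟨bu e, hu⟩ ⟨bv e, hv⟩
  rw [EG_split N b 0 hu hv, EG_split N b gx hu hv, D2_split N b hu hv, cG_zero, sG_zero]
  have h1 := hcorr.1
  have h2 := hcorr.2
  unfold nG
  linarith

/-- the character `θ_u + θ_v` -/
noncomputable def chs (u v : ℤ × ℤ) : Chr Ginf where
  c θ := cosT (θ u + θ v)
  s θ := sinT (θ u + θ v)
  cont_c := cont_cos.comp ((continuous_apply u).add (continuous_apply v))
  cont_s := cont_sin.comp ((continuous_apply u).add (continuous_apply v))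
  c_add x y := by
    have : (x + y) u + (x + y) v = (x u + x v) + (y u + y v) := by
      simp only [Pi.add_apply]; abel
    rw [this]
    exact Real.Angle.cos_add _ _
  s_add x y := by
    have : (x + y) u + (x + y) v = (x u + x v) + (y u + y v) := by
      simp only [Pi.add_apply]; abel
    rw [this]
    exact Real.Angle.sin_add _ _
  norm_sq x := Real.Angle.cos_sq_add_sin_sq _

theorem D2_gibbs (N : ℕ) (b : ℝ) (u v : ℤ × ℤ) :
    D2 N b u v = gibbs muInf (fun _ => b / 2) (chi0 N)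
      ((chs u v).comp (proj (inner N : Set (ℤ × ℤ))) (proj_cont _)).c := by
  exact (gibbs_chi0 N b (F := (chs u v).c) (chs u v).cont_c).symm

/-- the charge two expectation is monotone in `b` -/
theorem D2_mono (N : ℕ) {b b' : ℝ} (hb : 0 ≤ b) (h : b ≤ b') (u v : ℤ × ℤ) :
    D2 N b u v ≤ D2 N b' u v := by
  have cone : ∀ a : ℝ, 0 ≤ a → InCone (fun θ : Ginf => ∑ e : BI N, a * (chi0 N e).c θ) :=
    fun a ha => InCone.sum _ _ fun e _ => (InCone.chr (chi0 N e)).const_mul ha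
  have hg := ginibre_mono muInf pi_div2 (cone (b / 2) (by linarith))
    (cone ((b' - b) / 2) (by linarith))
    ((chs u v).comp (proj (inner N : Set (ℤ × ℤ))) (proj_cont _))
  have e1 : ∀ θ : Ginf, ∑ e : BI N, b / 2 * (chi0 N e).c θ +
      ∑ e : BI N, (b' - b) / 2 * (chi0 N e).c θ = ∑ e : BI N, b' / 2 * (chi0 N e).c θ := by
    intro θ
    rw [← Finset.sum_add_distrib]
    exact Finset.sum_congr rfl fun e _ => by ring
  simp_rw [e1] at hg
  rw [D2_gibbs, D2_gibbs]
  unfold gibbs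
  rw [div_le_div_iff₀ (weight_pos muInf (fun _ => b / 2) (chi0 N))
    (weight_pos muInf (fun _ => b' / 2) (chi0 N))]
  exact hg

/-- (R2) -/
theorem r2 : R2 := by
  classical
  intro N b₁ b₂ hN hb₁ hle
  set S : ℝ := ∑ e : BI N,
    if bu e ∈ inner N ∧ bv e ∈ inner N then 1 / 2 * D2 N b₂ (bu e) (bv e) else 1 with hS
  have hderiv : ∀ b : ℝ, HasDerivAt (FF N)
      (∑ e : BI N, 1 / 2 * EG N b 0 (fun θ => cosT (extBy N 0 θ (bu e) - extBy N 0 θ (bv e))) -
        ∑ e : BI N, 1 / 2 * EG N b gx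
          (fun θ => cosT (extBy N gx θ (bu e) - extBy N gx θ (bv e)))) b :=
    fun b => (log_deriv N b 0).sub (log_deriv N b gx)
  have hbound : ∀ b : ℝ, b₁ ≤ b → b ≤ b₂ → deriv (FF N) b ≤ S := by
    intro b h1 h2
    rw [(hderiv b).deriv, ← Finset.sum_sub_distrib, hS]
    refine Finset.sum_le_sum fun e _ => ?_
    split_ifs with h
    · have h3 := energy_diff hN (hb₁.le.trans h1) h.1 h.2
      have h4 := D2_mono N (hb₁.le.trans h1) h2 (bu e) (bv e)
      linarith
    · have h3 := abs_le.1 (EG_abs_le N b 0 e)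
      have h4 := abs_le.1 (EG_abs_le N b gx e)
      linarith [h3.2, h4.1]
  have h := (convex_Icc b₁ b₂).image_sub_le_mul_sub_of_deriv_le (f := FF N) (C := S)
    (fun b _ => (hderiv b).continuousAt.continuousWithinAt)
    (fun b _ => (hderiv b).differentiableAt.differentiableWithinAt)
    (fun b hb => by
      rw [interior_Icc] at hb
      exact hbound b hb.1.le hb.2.le)
    b₁ (Set.left_mem_Icc.2 hle) b₂ (Set.right_mem_Icc.2 hle) hle
  linarith

end Vale.Agent.P159.H556
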