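import Vale.Agent.P159.H556.TwistR2

/-!
Lower bound of the twisted partition function by the stiffness, and its macroscopic limit.
-/

open MeasureTheory Filter Topology
open scoped BigOperators

set_option linter.unusedSectionVars false

namespace Vale.Agent.P159.H556

open Vale.Agent.P159 Vale.Agent.P159.UJ

theorem gauge_const_energy (N : ℕ) (b c : ℝ) (φ : ℤ × ℤ → T) :
    gaugeEnergy N b (fun _ => c) 0 φ = ∑ e : BI N, b / 2 *
      (cosT (φ (bu e) - φ (bv e)) * Real.cos ((c • hh (l := N)) e) -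
        sinT (φ (bu e) - φ (bv e)) * Real.sin ((c • hh (l := N)) e)) := by
  rw [sum_BI, gaugeEnergy, Finset.sum_range]
  refine Finset.sum_congr rfl fun i _ => ?_
  rw [Finset.sum_range]
  refine Finset.sum_congr rfl fun j _ => ?_
  simp only [H950.cosT_add_coe]
  simp only [Pi.smul_apply, smul_eq_mul, hh, bu, bv, Pi.zero_apply]
  simp
  ring

theorem gaugeZ_const (N : ℕ) (b c : ℝ) :
    gaugeZ N b (fun _ => c) 0 = Zr muInf (fun _ => b / 2) (chi0 N) (c • hh) := by
  unfold gaugeZ Zr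
  have h := integral_ext (inner N) (f := fun θ => Real.exp (gaugeEnergy N b (fun _ => c) 0 θ))
    (Real.continuous_exp.comp (H950.gaugeEnergy_cont N b (fun _ => c) 0))
  rw [h]
  congr 1
  funext θ
  rw [gauge_const_energy]
  rfl

theorem gA_gx {N : ℕ} : H950.gA gx N = fun _ => -(1 / (N : ℝ)) := by
  funext v
  unfold H950.gA gx
  ring

theorem gB_gx {N : ℕ} : H950.gB gx N = 0 := by
  funext v
  unfold H950.gB gx
  simp

theorem bdryZ_gx (N : ℕ) (b : ℝ) :
    bdryZ N b gx = Zr muInf (fun _ => b / 2) (chi0 N) ((-(1 / (N : ℝ))) • hh) := by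
  rw [H950.bdryZ_eq, gA_gx, gB_gx, gaugeZ_const]

theorem bdryZ_0 (N : ℕ) (b : ℝ) :
    bdryZ N b 0 = Zr muInf (fun _ => b / 2) (chi0 N) 0 := by
  rw [H950.bdryZ_zero]
  have h := gaugeZ_const N b 0
  rw [zero_smul] at h
  exact h

/-- (R5) -/
theorem r5 : R5 := by
  intro N b hN hb
  have hN0 : (0 : ℝ) < N := by exact_mod_cast hN
  have hJ : ∀ _ : BI N, 0 ≤ b / 2 := fun _ => by positivity
  have h1 := lowerZ muInf (fun _ => b / 2) (chi0 N) pi_div2 hJ ((-(1 / (N : ℝ))) • hh)
  rw [QQ_smul2, Q0_h N b hN, ← bdryZ_gx, ← bdryZ_0] at h1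
  have p0 := bdryZ_pos N b 0
  have pg := bdryZ_pos N b gx
  have h2 := Real.log_le_log (Real.exp_pos _) h1
  rw [Real.log_exp, Real.log_div pg.ne' p0.ne'] at h2
  unfold FF
  have e : (-(1 / (N : ℝ))) ^ 2 * ((N : ℝ) ^ 2 * stiff N b) = stiff N b := by
    field_simp
  rw [e] at h2
  linarith

/-- macroscopic limit of the free energy of the twist -/
theorem FF_lim {b : ℝ} (hb : 0 < b) : Tendsto (fun N => FF N b) atTop (𝓝 (helicity b / 2)) := by
  have h := H950.bdry_lim hb (g := gx) (p := fun _ _ => 1) (q := fun _ _ => 0)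
    (f := fun _ _ => 0) continuous_const continuous_const continuous_const
    (fun x y => hasDerivAt_id x) (fun x y => hasDerivAt_const y _)
    (fun x y => hasDerivAt_const x _) (fun x y => by simpa using hasDerivAt_const y (0 : ℝ))
  have e : ∫ x in (0 : ℝ)..1, ∫ y in (0 : ℝ)..1, ((1 : ℝ) ^ 2 + (0 : ℝ) ^ 2) = 1 := by
    simp
  rw [e, mul_one] at h
  have h2 := (h.log (Real.exp_pos _).ne').neg
  rw [Real.log_exp, neg_neg] at h2
  refine h2.congr fun N => ?_
  rw [Real.log_div (bdryZ_pos N b gx).ne' (bdryZ_pos N b 0).ne']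
  unfold FF
  ring

end Vale.Agent.P159.H556
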